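import Mathlib

/-!
# P298, S1-ABS (b) (helper283): area means and circle means
-/

open Complex Metric Set Filter Topology MeasureTheory

noncomputable section

namespace Vale.Agent.P298.H283

theorem inner_eq {w : ℂ → ℝ} {c : ℂ} {s : ℝ} :
    (∫ θ in Ioo (-Real.pi) Real.pi, s * w (circleMap c s θ)) =
      (2 * Real.pi * s) * Real.circleAverage w c s := by
  rw [Real.circleAverage_eq_integral_add (-Real.pi),
    intervalIntegral.integral_comp_add_right (fun θ => w (circleMap c s θ))]
  have h1 : 0 + -Real.pi = -Real.pi := by ring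
  have h2 : 2 * Real.pi + -Real.pi = Real.pi := by ring
  rw [h1, h2, intervalIntegral.integral_of_le (by linarith [Real.pi_pos]),
    integral_Ioc_eq_integral_Ioo, integral_const_mul, smul_eq_mul]
  have hpi := Real.pi_pos.ne'
  field_simp

theorem area_eq {w : ℂ → ℝ} {c : ℂ} {r : ℝ} (hw : ContinuousOn w (closedBall c r)) :
    (∫ z in ball c r, w z) =
      ∫ s in Ioo (0 : ℝ) r, (2 * Real.pi * s) * Real.circleAverage w c s := by
  rw [← integral_indicator measurableSet_ball, ← integral_add_left_eq_self ((ball c r).indicator w) c,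
    ← Complex.integral_comp_polarCoord_symm]
  have h1 : (∫ p in polarCoord.target, p.1 • (ball c r).indicator w (c + Complex.polarCoord.symm p)) =
      ∫ p in polarCoord.target, (Iio r ×ˢ (univ : Set ℝ)).indicator
        (fun p : ℝ × ℝ => p.1 * w (circleMap c p.1 p.2)) p := by
    refine setIntegral_congr_fun polarCoord.open_target.measurableSet fun p hp => ?_
    rw [polarCoord_target] at hp
    have hp1 : 0 < p.1 := hp.1
    have h2 : c + Complex.polarCoord.symm p = circleMap c p.1 p.2 := by
      rw [Complex.polarCoord_symm_apply, circleMap, Complex.exp_mul_I]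
      simp
    simp only [h2, smul_eq_mul]
    have h3 : circleMap c p.1 p.2 ∈ ball c r ↔ p.1 < r := by
      rw [mem_ball, dist_eq_norm, circleMap_sub_center, norm_circleMap_zero, abs_of_pos hp1]
    by_cases h4 : p.1 < r
    · rw [indicator_of_mem (h3.2 h4), indicator_of_mem]
      exact ⟨h4, mem_univ _⟩
    · rw [indicator_of_notMem (fun h => h4 (h3.1 h)), indicator_of_notMem, mul_zero]
      exact fun h => h4 h.1
  rw [h1, setIntegral_indicator (measurableSet_Iio.prod MeasurableSet.univ), polarCoord_target]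
  have h5 : (Ioi (0 : ℝ) ×ˢ Ioo (-Real.pi) Real.pi) ∩ (Iio r ×ˢ (univ : Set ℝ)) =
      Ioo 0 r ×ˢ Ioo (-Real.pi) Real.pi := by
    rw [Set.prod_inter_prod, inter_univ, Ioi_inter_Iio]
  rw [h5, Measure.volume_eq_prod, setIntegral_prod]
  · refine setIntegral_congr_fun measurableSet_Ioo fun s hs => ?_
    exact inner_eq
  · have hK : IsCompact (Icc (0 : ℝ) r ×ˢ Icc (-Real.pi) Real.pi) := isCompact_Icc.prod isCompact_Icc
    have hc : ContinuousOn (fun p : ℝ × ℝ => p.1 * w (circleMap c p.1 p.2))
        (Icc (0 : ℝ) r ×ˢ Icc (-Real.pi) Real.pi) := by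
      refine continuous_fst.continuousOn.mul ?_
      refine hw.comp (by fun_prop) fun p hp => ?_
      have hp1 : 0 ≤ p.1 := hp.1.1
      rw [mem_closedBall, dist_eq_norm, circleMap_sub_center, norm_circleMap_zero,
        abs_of_nonneg hp1]
      exact hp.1.2
    have h6 := hc.integrableOn_compact (μ := (volume : Measure ℝ).prod (volume : Measure ℝ)) hK
    exact h6.mono_set (prod_mono Ioo_subset_Icc_self Ioo_subset_Icc_self)

theorem area_mean {w : ℂ → ℝ} {c : ℂ} {r k : ℝ} (hr : 0 < r)
    (hw : ContinuousOn w (closedBall c r))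
    (h : ∀ s, 0 < s → s < r → w c ≤ Real.circleAverage w c s + k * s ^ 2) :
    w c ≤ (∫ z in ball c r, w z) / (Real.pi * r ^ 2) + k * r ^ 2 / 2 := by
  have hpi := Real.pi_pos
  rw [area_eq hw]
  have hcA : ContinuousOn (Real.circleAverage w c) (Icc 0 r) := by
    refine Real.ContinuousOn.circleAverage (hw.mono fun z hz => ?_) fun s hs => hs.1
    rw [mem_closedBall, dist_eq_norm]
    exact hz.2
  have hi1 : IntegrableOn (fun s => (2 * Real.pi * s) * Real.circleAverage w c s) (Ioo 0 r) := by
    have h1 : ContinuousOn (fun s => (2 * Real.pi * s) * Real.circleAverage w c s) (Icc 0 r) :=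
      ContinuousOn.mul (by fun_prop) hcA
    exact (h1.integrableOn_compact isCompact_Icc).mono_set Ioo_subset_Icc_self
  have hi2 : IntegrableOn (fun s => (2 * Real.pi * s) * (w c - k * s ^ 2)) (Ioo 0 r) := by
    have h1 : ContinuousOn (fun s => (2 * Real.pi * s) * (w c - k * s ^ 2)) (Icc 0 r) := by
      fun_prop
    exact (h1.integrableOn_compact isCompact_Icc).mono_set Ioo_subset_Icc_self
  have h1 : (∫ s in Ioo (0 : ℝ) r, (2 * Real.pi * s) * (w c - k * s ^ 2)) ≤
      ∫ s in Ioo (0 : ℝ) r, (2 * Real.pi * s) * Real.circleAverage w c s := by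
    refine setIntegral_mono_on hi2 hi1 measurableSet_Ioo fun s hs => ?_
    have h2 := h s hs.1 hs.2
    have h3 : 0 ≤ 2 * Real.pi * s := by
      have := hs.1
      positivity
    exact mul_le_mul_of_nonneg_left (by linarith) h3
  have h2 : (∫ s in Ioo (0 : ℝ) r, (2 * Real.pi * s) * (w c - k * s ^ 2)) =
      Real.pi * r ^ 2 * w c - k * Real.pi * r ^ 4 / 2 := by
    rw [← integral_Ioc_eq_integral_Ioo, ← intervalIntegral.integral_of_le hr.le]
    have h3 : ∀ s ∈ uIcc 0 r, HasDerivAt (fun s => Real.pi * s ^ 2 * w c - k * Real.pi * s ^ 4 / 2)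
        ((2 * Real.pi * s) * (w c - k * s ^ 2)) s := by
      intro s _
      have h4 := ((hasDerivAt_pow 2 s).const_mul (Real.pi)).mul_const (w c)
      have h5 := ((hasDerivAt_pow 4 s).const_mul (k * Real.pi)).div_const 2
      refine (h4.sub h5).congr_deriv ?_
      norm_num
      ring
    rw [intervalIntegral.integral_eq_sub_of_hasDerivAt h3
      ((by fun_prop : Continuous fun s : ℝ => (2 * Real.pi * s) * (w c - k * s ^ 2)).intervalIntegrable
        _ _)]
    simp
  rw [h2] at h1
  have h3 : w c = (Real.pi * r ^ 2 * w c - k * Real.pi * r ^ 4 / 2) / (Real.pi * r ^ 2) +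
      k * r ^ 2 / 2 := by
    field_simp
    ring
  rw [h3]
  have h4 := div_le_div_of_nonneg_right h1 (by positivity : 0 ≤ Real.pi * r ^ 2)
  linarith

end Vale.Agent.P298.H283
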