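import Vale.Agent.P298.H283.Glob1
import Vale.Agent.P298.H283.Glob2

/-!
# P298, S1-ABS (b) (helper283): the two global conclusions (R) and (P2)
-/

set_option linter.unusedVariables false

open Complex Metric Set Filter Topology MeasureTheory

noncomputable section

namespace Vale.Agent.P298.H283

theorem Supp.lowSup {N x y : ℂ → ℝ} {z : ℂ} (h : Supp N x y z) : LowSup N (x z) z := h.sN

/-- global hypotheses -/
structure Glb (N x y : ℂ → ℝ) (R K : ℝ) (T : Finset ℂ) : Prop where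
  hR : 0 < R
  hNc : ContinuousOn N (closedBall 0 R)
  hN0 : ∀ z ∈ closedBall (0 : ℂ) R, 0 ≤ N z
  hx0 : ∀ z ∈ ball (0 : ℂ) R \ (T : Set ℂ), 0 ≤ x z
  hy0 : ∀ z ∈ ball (0 : ℂ) R \ (T : Set ℂ), 0 ≤ y z
  hxK : ∀ z ∈ ball (0 : ℂ) R \ (T : Set ℂ), x z ≤ K
  hyK : ∀ z ∈ ball (0 : ℂ) R \ (T : Set ℂ), y z ≤ K
  hxc : ContinuousOn x (ball (0 : ℂ) R \ (T : Set ℂ))
  hyc : ContinuousOn y (ball (0 : ℂ) R \ (T : Set ℂ))
  hs : ∀ z ∈ ball (0 : ℂ) R \ (T : Set ℂ), Supp N x y z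

variable {N x y : ℂ → ℝ} {R K : ℝ} {T : Finset ℂ}

/-- `x` on a smaller disc -/
theorem Glb.x_le (h : Glb N x y R K T) {c : ℂ} {ρ Lam δ : ℝ} (hρ : 0 < ρ) (hsub : ball c ρ ⊆ ball 0 R)
    (hLam : ∀ z ∈ ball c ρ, N z ≤ Lam) (hδ0 : 0 < δ) (hδ1 : δ < 1) :
    ∀ z ∈ ball c (δ * ρ) \ (T : Set ℂ), x z ≤ 32 * Lam / ((1 - δ ^ 2) ^ 2 * ρ ^ 2) := by
  intro z hz
  have hδρ : δ * ρ < ρ := by nlinarith
  have hzb : z ∈ ball c ρ \ (T : Set ℂ) := ⟨ball_subset_ball hδρ.le hz.1, hz.2⟩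
  have h1 := schwarz (c := c) (R := ρ) (Lam := Lam) (T := T) (N := N) (x := x) (y := y) (K := K) hρ
    (fun w hw => h.hN0 w (ball_subset_closedBall (hsub hw))) hLam
    (fun w hw => h.hx0 w ⟨hsub hw.1, hw.2⟩) (fun w hw => h.hy0 w ⟨hsub hw.1, hw.2⟩)
    (fun w hw => h.hxK w ⟨hsub hw.1, hw.2⟩) (fun w hw => h.hyK w ⟨hsub hw.1, hw.2⟩)
    (h.hxc.mono fun w hw => ⟨hsub hw.1, hw.2⟩) (h.hyc.mono fun w hw => ⟨hsub hw.1, hw.2⟩)
    (fun w hw => h.hs w ⟨hsub hw.1, hw.2⟩) z hzb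
  have hzn : ‖z - c‖ < δ * ρ := by
    have := hz.1
    rwa [mem_ball, dist_eq_norm] at this
  have hδ2 : 0 < 1 - δ ^ 2 := by nlinarith
  have h2 : (1 - δ ^ 2) * ρ ^ 2 ≤ ρ ^ 2 - ‖z - c‖ ^ 2 := by
    have := norm_nonneg (z - c)
    nlinarith
  have h3 : ((1 - δ ^ 2) * ρ ^ 2) ^ 2 ≤ (ρ ^ 2 - ‖z - c‖ ^ 2) ^ 2 :=
    pow_le_pow_left₀ (by positivity) h2 2
  have h4 : x z * ((1 - δ ^ 2) * ρ ^ 2) ^ 2 ≤ 32 * Lam * ρ ^ 2 :=
    (mul_le_mul_of_nonneg_left h3 (h.hx0 z ⟨hsub hzb.1, hz.2⟩)).trans h1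
  rw [le_div_iff₀ (by positivity)]
  have h5 : (x z * ((1 - δ ^ 2) ^ 2 * ρ ^ 2)) * ρ ^ 2 ≤ (32 * Lam) * ρ ^ 2 := by
    calc (x z * ((1 - δ ^ 2) ^ 2 * ρ ^ 2)) * ρ ^ 2 = x z * ((1 - δ ^ 2) * ρ ^ 2) ^ 2 := by ring
      _ ≤ 32 * Lam * ρ ^ 2 := h4
  exact le_of_mul_le_mul_right h5 (by positivity)

/-- **(R)** -/
theorem Glb.ring_bound (h : Glb N x y R K T) {B : ℝ}
    (hB : ∀ t : ℂ, R / 11 ≤ ‖t‖ → ‖t‖ ≤ R → N t ≤ B) :
    ∀ t ∈ closedBall (0 : ℂ) R, N t ≤ 2 * B := by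
  have hR := h.hR
  obtain ⟨t₁, ht₁, hmax⟩ := (isCompact_closedBall (0 : ℂ) R).exists_isMaxOn
    ⟨0, mem_closedBall_self hR.le⟩ h.hNc
  have hLam : ∀ z ∈ closedBall (0 : ℂ) R, N z ≤ N t₁ := fun z hz => hmax hz
  have hB0 : 0 ≤ B := by
    have h1 : ‖(R : ℂ)‖ = R := by
      rw [Complex.norm_real, Real.norm_eq_abs, abs_of_pos hR]
    have h2 := hB (R : ℂ) (by rw [h1]; linarith) (by rw [h1])
    have h3 := h.hN0 (R : ℂ) (by rw [mem_closedBall, dist_zero_right, h1])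
    linarith
  have ht₁n : ‖t₁‖ ≤ R := by rwa [mem_closedBall, dist_zero_right] at ht₁
  suffices hs : N t₁ ≤ 2 * B from fun t ht => (hLam t ht).trans hs
  by_cases hcase : R / 11 ≤ ‖t₁‖
  · have := hB t₁ hcase ht₁n
    linarith
  push Not at hcase
  have h1 := h.x_le (c := 0) (ρ := R) (Lam := N t₁) (δ := 1 / 11) hR le_rfl
    (fun z hz => hLam z (ball_subset_closedBall hz)) (by norm_num) (by norm_num)
  set k : ℝ := 32 * N t₁ / ((1 - (1 / 11 : ℝ) ^ 2) ^ 2 * R ^ 2) with hk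
  have hr : 0 < 1 / 11 * R := by linarith
  have hsubc : closedBall (0 : ℂ) (1 / 11 * R) ⊆ closedBall 0 R :=
    closedBall_subset_closedBall (by linarith)
  have hsub : ball (0 : ℂ) (1 / 11 * R) ⊆ ball 0 R := ball_subset_ball (by linarith)
  have h2 := max_principle (w := N) (F := fun _ => (B : ℂ)) (c := 0) (r := 1 / 11 * R) (k := k) (T := T)
    hr (h.hNc.mono hsubc) (by fun_prop)
    (fun z hz => (h.hs z ⟨hsub hz.1, hz.2⟩).lowSup.mono (h1 z hz))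
    (fun z hz => by
      rw [mem_sphere, dist_zero_right] at hz
      rw [Complex.ofReal_re]
      exact hB z (by rw [hz]; linarith) (by rw [hz]; linarith))
    t₁ (by rw [mem_closedBall, dist_zero_right]; linarith)
  rw [Complex.ofReal_re, sub_zero] at h2
  have hN1 : 0 ≤ N t₁ := h.hN0 t₁ ht₁
  have hk0 : 0 ≤ k := by positivity
  have h3 : k * ((1 / 11 * R) ^ 2 - ‖t₁‖ ^ 2) ≤ k * (1 / 11 * R) ^ 2 :=
    mul_le_mul_of_nonneg_left (by nlinarith [sq_nonneg ‖t₁‖]) hk0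
  have h4 : k * (1 / 11 * R) ^ 2 = 32 * (121 / 120) ^ 2 / 121 * N t₁ := by
    rw [hk]
    field_simp
    norm_num
    try ring
  rw [h4] at h3
  nlinarith

/-- **(P2)** -/
theorem Glb.mean_bound (h : Glb N x y R K T) {t : ℂ} (ht : ‖t‖ ≤ R / 2) :
    N t ≤ 8000 * ((∫ z in ball (0 : ℂ) R, N z) / (Real.pi * R ^ 2)) := by
  have hR := h.hR
  have hpi := Real.pi_pos
  have hcont : ContinuousOn (fun z : ℂ => (R - ‖z‖) ^ 2 * N z) (closedBall 0 R) :=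
    ContinuousOn.mul (by fun_prop) h.hNc
  obtain ⟨t₀, ht₀, hmax⟩ := (isCompact_closedBall (0 : ℂ) R).exists_isMaxOn
    ⟨0, mem_closedBall_self hR.le⟩ hcont
  have hmax' : ∀ z : ℂ, ‖z‖ ≤ R → (R - ‖z‖) ^ 2 * N z ≤ (R - ‖t₀‖) ^ 2 * N t₀ := fun z hz =>
    hmax (by rwa [mem_closedBall, dist_zero_right] : z ∈ closedBall (0 : ℂ) R)
  have ht₀n : ‖t₀‖ ≤ R := by rwa [mem_closedBall, dist_zero_right] at ht₀
  have hN0 : ∀ z : ℂ, ‖z‖ ≤ R → 0 ≤ N z := fun z hz =>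
    h.hN0 z (by rwa [mem_closedBall, dist_zero_right])
  have hI0 : 0 ≤ ∫ z in ball (0 : ℂ) R, N z :=
    setIntegral_nonneg measurableSet_ball fun z hz => h.hN0 z (ball_subset_closedBall hz)
  have hNi : IntegrableOn N (ball (0 : ℂ) R) :=
    (h.hNc.integrableOn_compact (isCompact_closedBall _ _)).mono_set ball_subset_closedBall
  -- reduction to `t₀`
  have h1 : (R / 2) ^ 2 * N t ≤ (R - ‖t₀‖) ^ 2 * N t₀ := by
    refine le_trans ?_ (hmax' t (by linarith))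
    refine mul_le_mul_of_nonneg_right ?_ (hN0 t (by linarith))
    exact pow_le_pow_left₀ (by linarith) (by linarith) 2
  suffices hs : (R - ‖t₀‖) ^ 2 * N t₀ ≤ 1152 / Real.pi * ∫ z in ball (0 : ℂ) R, N z by
    have h2 : N t ≤ 4608 * ((∫ z in ball (0 : ℂ) R, N z) / (Real.pi * R ^ 2)) := by
      have h3 := h1.trans hs
      have h4 : 4608 * ((∫ z in ball (0 : ℂ) R, N z) / (Real.pi * R ^ 2)) =
          (1152 / Real.pi * ∫ z in ball (0 : ℂ) R, N z) / (R / 2) ^ 2 := by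
        field_simp
        norm_num
        try ring
      rw [h4, le_div_iff₀ (by positivity)]
      linarith
    refine h2.trans (mul_le_mul_of_nonneg_right (by norm_num) (by positivity))
  rcases ht₀n.eq_or_lt with heq | hlt
  · rw [heq, sub_self]
    have : 0 ≤ 1152 / Real.pi * ∫ z in ball (0 : ℂ) R, N z := by positivity
    simpa using this
  set ρ : ℝ := (R - ‖t₀‖) / 2 with hρ
  have hρ0 : 0 < ρ := by rw [hρ]; linarith
  have hN1 : 0 ≤ N t₀ := hN0 t₀ ht₀n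
  have hsub : ball t₀ ρ ⊆ ball 0 R := by
    intro z hz
    rw [mem_ball, dist_eq_norm] at hz
    rw [mem_ball, dist_zero_right]
    have := norm_le_insert' z t₀
    rw [hρ] at hz
    have h5 : ‖z‖ ≤ ‖t₀‖ + ‖z - t₀‖ := by
      have := norm_add_le t₀ (z - t₀)
      rwa [add_sub_cancel] at this
    linarith
  have hLam : ∀ z ∈ ball t₀ ρ, N z ≤ 4 * N t₀ := by
    intro z hz
    rw [mem_ball, dist_eq_norm] at hz
    have h5 : ‖z‖ ≤ ‖t₀‖ + ‖z - t₀‖ := by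
      have := norm_add_le t₀ (z - t₀)
      rwa [add_sub_cancel] at this
    have h6 : ρ ≤ R - ‖z‖ := by rw [hρ] at hz ⊢; linarith
    have h7 := hmax' z (by linarith)
    have h8 : R - ‖t₀‖ = 2 * ρ := by rw [hρ]; ring
    rw [h8] at h7
    have h9 : ρ ^ 2 * N z ≤ (R - ‖z‖) ^ 2 * N z :=
      mul_le_mul_of_nonneg_right (pow_le_pow_left₀ hρ0.le h6 2) (hN0 z (by linarith))
    have h10 : ρ ^ 2 * N z ≤ ρ ^ 2 * (4 * N t₀) := by nlinarith
    exact le_of_mul_le_mul_left h10 (by positivity)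
  have hx := h.x_le (c := t₀) (ρ := ρ) (Lam := 4 * N t₀) (δ := 1 / 12) hρ0 hsub hLam
    (by norm_num) (by norm_num)
  set k : ℝ := 32 * (4 * N t₀) / ((1 - (1 / 12 : ℝ) ^ 2) ^ 2 * ρ ^ 2) with hk
  have hr : 0 < 1 / 12 * ρ := by positivity
  have hk0 : 0 ≤ k := by positivity
  have hsubr : ball t₀ (1 / 12 * ρ) ⊆ ball 0 R :=
    (ball_subset_ball (by linarith)).trans hsub
  have hsubrc : closedBall t₀ (1 / 12 * ρ) ⊆ closedBall 0 R :=
    ((closedBall_subset_ball (by linarith)).trans hsub).trans ball_subset_closedBall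
  have h2 := area_mean (w := N) (c := t₀) (r := 1 / 12 * ρ) (k := k) hr (h.hNc.mono hsubrc)
    (fun s hs0 hs1 => submean (T := T) hs0
      (h.hNc.mono ((closedBall_subset_closedBall hs1.le).trans hsubrc))
      fun z hz => (h.hs z ⟨hsubr (ball_subset_ball hs1.le hz.1), hz.2⟩).lowSup.mono
        (hx z ⟨ball_subset_ball hs1.le hz.1, hz.2⟩))
  have h3 : k * (1 / 12 * ρ) ^ 2 / 2 ≤ 1 / 2 * N t₀ := by
    have : k * (1 / 12 * ρ) ^ 2 / 2 = 64 / 144 * (144 / 143) ^ 2 * N t₀ := by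
      rw [hk]
      field_simp
      norm_num
      try ring
    rw [this]
    nlinarith
  have h4 : (∫ z in ball t₀ (1 / 12 * ρ), N z) ≤ ∫ z in ball (0 : ℂ) R, N z := by
    refine setIntegral_mono_set hNi ?_ (Eventually.of_forall hsubr)
    filter_upwards [ae_restrict_mem measurableSet_ball] with z hz
    exact h.hN0 z (ball_subset_closedBall hz)
  have h5 : (∫ z in ball t₀ (1 / 12 * ρ), N z) / (Real.pi * (1 / 12 * ρ) ^ 2) ≤
      (∫ z in ball (0 : ℂ) R, N z) / (Real.pi * (1 / 12 * ρ) ^ 2) :=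
    div_le_div_of_nonneg_right h4 (by positivity)
  have h6 : N t₀ ≤ 2 * ((∫ z in ball (0 : ℂ) R, N z) / (Real.pi * (1 / 12 * ρ) ^ 2)) := by
    linarith
  have h7 : R - ‖t₀‖ = 2 * ρ := by rw [hρ]; ring
  rw [h7]
  calc (2 * ρ) ^ 2 * N t₀
      ≤ (2 * ρ) ^ 2 * (2 * ((∫ z in ball (0 : ℂ) R, N z) / (Real.pi * (1 / 12 * ρ) ^ 2))) :=
        mul_le_mul_of_nonneg_left h6 (sq_nonneg _)
    _ = 1152 / Real.pi * ∫ z in ball (0 : ℂ) R, N z := by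
        field_simp
        norm_num
        try ring

/-- **Global lemma**, in the form of `S1Abs`. -/
theorem glob {T : Set ℂ} (hR : 0 < R) (hT : T.Finite)
    (hNc : ContinuousOn N (closedBall 0 R)) (hN0 : ∀ z ∈ closedBall (0 : ℂ) R, 0 ≤ N z)
    (hx0 : ∀ z ∈ ball (0 : ℂ) R \ T, 0 ≤ x z) (hy0 : ∀ z ∈ ball (0 : ℂ) R \ T, 0 ≤ y z)
    (hxK : ∀ z ∈ ball (0 : ℂ) R \ T, x z ≤ K) (hyK : ∀ z ∈ ball (0 : ℂ) R \ T, y z ≤ K)
    (hxc : ContinuousOn x (ball (0 : ℂ) R \ T)) (hyc : ContinuousOn y (ball (0 : ℂ) R \ T))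
    (hs : ∀ z ∈ ball (0 : ℂ) R \ T, Supp N x y z) :
    (∀ B : ℝ, (∀ t : ℂ, R / 11 ≤ ‖t‖ → ‖t‖ ≤ R → N t ≤ B) →
      ∀ t ∈ closedBall (0 : ℂ) R, N t ≤ 2 * B) ∧
    (∀ t : ℂ, ‖t‖ ≤ R / 2 → N t ≤ 8000 * ((∫ z in ball (0 : ℂ) R, N z) / (Real.pi * R ^ 2))) := by
  have hc : ((hT.toFinset : Finset ℂ) : Set ℂ) = T := hT.coe_toFinset
  have h : Glb N x y R K hT.toFinset := by
    constructor <;> first | assumption | (rw [hc]; assumption)
  exact ⟨fun B hB => h.ring_bound hB, fun t ht => h.mean_bound ht⟩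

end Vale.Agent.P298.H283
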