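import Vale.Agent.P298.H283.OTLim

/-!
# P298, OT-D1 (helper283): mass of thin neighbourhoods of a slice
-/

set_option linter.all false

open MeasureTheory Filter Topology Metric
open scoped ENNReal NNReal ComplexConjugate

namespace Vale.Agent.P298.H283

open Vale.Agent.P300.L2 Vale.Agent.P300.L2.Sheets

section Fib

variable {n N : ℕ} {S : Sheets n N}

/-- fibre sums of a weighted function, extended by zero -/
noncomputable def gS (S : Sheets n N) (Y : (Fin n → ℂ) × ℕ → ℝ) (p : (Fin n → ℂ) → ℝ) (c : ℝ) :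
    (Fin n → ℂ) → ℝ≥0∞ :=
  S.V.indicator fun z => ENNReal.ofReal (∑ w ∈ S.fib z, Y (z, w) * Real.exp (-(c * p z)))

theorem gS_cont_aux {Y : (Fin n → ℂ) × ℕ → ℝ} (hY : S.CD 0 (fun q => (Y q : ℂ)))
    {p : (Fin n → ℂ) → ℝ} (hp : ContinuousOn p S.V) (c : ℝ) :
    ContinuousOn (fun z => ∑ w ∈ S.fib z, Y (z, w) * Real.exp (-(c * p z))) S.V := by
  have h1 : ContinuousOn (S.fsum (fun q => (Y q : ℂ))) S.V :=
    (contDiffOn_fsum (m := 0) hY).continuousOn
  have h2 : ContinuousOn (fun z => (S.fsum (fun q => (Y q : ℂ)) z).re * Real.exp (-(c * p z))) S.V :=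
    (Complex.continuous_re.comp_continuousOn h1).mul
      (Real.continuous_exp.comp_continuousOn (continuousOn_const.mul hp).neg)
  refine h2.congr fun z hz => ?_
  have h3 : (S.fsum (fun q => (Y q : ℂ)) z).re = ∑ w ∈ S.fib z, Y (z, w) := by
    rw [fsum, Complex.re_sum]
    rfl
  show _ = (S.fsum (fun q => (Y q : ℂ)) z).re * Real.exp (-(c * p z))
  rw [h3, Finset.sum_mul]

theorem gS_measurable {Y : (Fin n → ℂ) × ℕ → ℝ} (hY : S.CD 0 (fun q => (Y q : ℂ)))
    {p : (Fin n → ℂ) → ℝ} (hp : ContinuousOn p S.V) (c : ℝ) : Measurable (gS S Y p c) := by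
  classical
  have h1 := gS_cont_aux hY hp c
  have h2 : Measurable (S.V.piecewise (fun z => ENNReal.ofReal
      (∑ w ∈ S.fib z, Y (z, w) * Real.exp (-(c * p z)))) (fun _ => 0)) :=
    (ENNReal.continuous_ofReal.comp_continuousOn h1).measurable_piecewise continuousOn_const
      S.isOpen.measurableSet
  have h3 : gS S Y p c = S.V.piecewise (fun z => ENNReal.ofReal
      (∑ w ∈ S.fib z, Y (z, w) * Real.exp (-(c * p z)))) (fun _ => 0) := by
    rw [gS, ← Set.piecewise_eq_indicator]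
    rfl
  rw [h3]
  exact h2

theorem gS_continuousAt {Y : (Fin n → ℂ) × ℕ → ℝ} (hY : S.CD 0 (fun q => (Y q : ℂ)))
    {p : (Fin n → ℂ) → ℝ} (hp : ContinuousOn p S.V) (c : ℝ) {z : Fin n → ℂ} (hz : z ∈ S.V) :
    ContinuousAt (gS S Y p c) z := by
  have h1 : ContinuousAt (fun z => ENNReal.ofReal
      (∑ w ∈ S.fib z, Y (z, w) * Real.exp (-(c * p z)))) z :=
    (ENNReal.continuous_ofReal.comp_continuousOn (gS_cont_aux hY hp c)).continuousAt
      (S.isOpen.mem_nhds hz)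
  refine h1.congr ?_
  filter_upwards [S.isOpen.mem_nhds hz] with y hy
  rw [gS, Set.indicator_of_mem hy]

/-- elementary bound -/
theorem exp_bound (K : ℕ) {c : ℝ} (hc : 0 < c) : ∃ D : ℝ, 0 < D ∧ ∀ t : ℝ, 0 ≤ t →
    (1 + t) ^ K * Real.exp (-(c * t)) ≤ D := by
  refine ⟨(K.factorial : ℝ) / c ^ K * Real.exp c, by positivity, fun t ht => ?_⟩
  have h1 := Real.pow_div_factorial_le_exp (x := c * (1 + t)) (by positivity) K
  have h2 : Real.exp (c * (1 + t)) = Real.exp c * Real.exp (c * t) := by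
    rw [← Real.exp_add]; congr 1; ring
  rw [mul_pow, h2, div_le_iff₀ (by positivity)] at h1
  have h3 : (1 + t) ^ K ≤ (K.factorial : ℝ) / c ^ K * Real.exp c * Real.exp (c * t) := by
    rw [div_mul_eq_mul_div, div_mul_eq_mul_div, le_div_iff₀ (by positivity)]
    linarith
  calc (1 + t) ^ K * Real.exp (-(c * t))
      ≤ (K.factorial : ℝ) / c ^ K * Real.exp c * Real.exp (c * t) * Real.exp (-(c * t)) := by gcongr
    _ = _ := by
      rw [mul_assoc, ← Real.exp_add, add_neg_cancel, Real.exp_zero, mul_one]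

theorem gS_le {p : (Fin n → ℂ) → ℝ} (hp : ∀ z ∈ S.V, ‖z‖ ^ 2 ≤ p z)
    {Y : (Fin n → ℂ) × ℕ → ℝ} {B : ℝ} {k : ℕ} (hYb : ∀ q ∈ S.M, Y q ≤ B * (1 + p q.1) ^ k)
    (hB : 0 ≤ B) {c : ℝ} (hc : 0 < c) (K : ℕ) :
    ∃ D : ℝ, 0 < D ∧ ∀ z, gS S Y p c z ≤ ENNReal.ofReal (D * (1 + ‖z‖) ^ (-(K : ℝ))) := by
  obtain ⟨D, hD0, hD⟩ := exp_bound (k + K) hc
  refine ⟨(N * B + 1) * (2 ^ K * D), by positivity, fun z => ?_⟩
  by_cases hz : z ∈ S.V
  · rw [gS, Set.indicator_of_mem hz]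
    refine ENNReal.ofReal_le_ofReal ?_
    have hp0 : 0 ≤ p z := (sq_nonneg _).trans (hp z hz)
    have h1 : ∑ w ∈ S.fib z, Y (z, w) * Real.exp (-(c * p z)) ≤
        N * (B * (1 + p z) ^ k * Real.exp (-(c * p z))) := by
      have h6 : ∑ w ∈ S.fib z, Y (z, w) * Real.exp (-(c * p z)) ≤
          (S.fib z).card • (B * (1 + p z) ^ k * Real.exp (-(c * p z))) := by
        refine Finset.sum_le_card_nsmul _ _ _ fun w hw => ?_
        have := hYb (z, w) ⟨hz, hw⟩
        gcongr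
      rwa [card_fib hz, nsmul_eq_mul] at h6
    refine h1.trans ?_
    have h2 : 1 + ‖z‖ ≤ 2 * (1 + p z) := by
      nlinarith [hp z hz, sq_nonneg (‖z‖ - 1), norm_nonneg z]
    have h3 : 1 ≤ (2 * (1 + p z)) ^ K * (1 + ‖z‖) ^ (-(K : ℝ)) := by
      rw [Real.rpow_neg (by positivity), Real.rpow_natCast, ← div_eq_mul_inv,
        one_le_div (by positivity)]
      exact pow_le_pow_left₀ (by positivity) h2 K
    have h4 := hD (p z) hp0
    have h5 : 0 ≤ (1 + ‖z‖) ^ (-(K : ℝ)) := by positivity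
    calc (N : ℝ) * (B * (1 + p z) ^ k * Real.exp (-(c * p z)))
        = (N * B) * ((1 + p z) ^ k * Real.exp (-(c * p z)) * 1) := by ring
      _ ≤ (N * B + 1) * ((1 + p z) ^ k * Real.exp (-(c * p z)) *
            ((2 * (1 + p z)) ^ K * (1 + ‖z‖) ^ (-(K : ℝ)))) := by
          gcongr
          linarith
      _ = (N * B + 1) * (2 ^ K * ((1 + p z) ^ (k + K) * Real.exp (-(c * p z)))) *
            (1 + ‖z‖) ^ (-(K : ℝ)) := by
          rw [mul_pow, pow_add]; ring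
      _ ≤ (N * B + 1) * (2 ^ K * D) * (1 + ‖z‖) ^ (-(K : ℝ)) := by gcongr
  · rw [gS, Set.indicator_of_notMem hz]
    exact zero_le

end Fib

variable {n N : ℕ} {S : Sheets (n + 1) N}

/-- the slice integral -/
noncomputable def slI (S : Sheets (n + 1) N) (j₀ : Fin (n + 1)) (Y : (Fin (n + 1) → ℂ) × ℕ → ℝ)
    (p : (Fin (n + 1) → ℂ) → ℝ) (c : ℝ) (τ : ℂ) : ℝ≥0∞ :=
  ∫⁻ x : Fin n → ℂ, gS S Y p c (j₀.insertNth τ x)

theorem norm_le_insertNth (j₀ : Fin (n + 1)) (τ : ℂ) (x : Fin n → ℂ) :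
    ‖x‖ ≤ ‖(j₀.insertNth τ x : Fin (n + 1) → ℂ)‖ := by
  rw [pi_norm_le_iff_of_nonneg (norm_nonneg _)]
  intro i
  have := norm_le_pi_norm (j₀.insertNth τ x : Fin (n + 1) → ℂ) (j₀.succAbove i)
  rwa [Fin.insertNth_apply_succAbove] at this

theorem continuous_insertNth' (j₀ : Fin (n + 1)) :
    Continuous fun q : ℂ × (Fin n → ℂ) => (j₀.insertNth q.1 q.2 : Fin (n + 1) → ℂ) := by
  refine continuous_pi fun i => ?_
  rcases Fin.eq_self_or_eq_succAbove j₀ i with rfl | ⟨k, rfl⟩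
  · simp only [Fin.insertNth_apply_same]
    exact continuous_fst
  · simp only [Fin.insertNth_apply_succAbove]
    exact (continuous_apply k).comp continuous_snd

/-- the slice integrals are continuous at `0` -/
theorem slI_tendsto (j₀ : Fin (n + 1)) {Y : (Fin (n + 1) → ℂ) × ℕ → ℝ}
    (hY : S.CD 0 (fun q => (Y q : ℂ))) {p : (Fin (n + 1) → ℂ) → ℝ} (hpc : ContinuousOn p S.V)
    (hp : ∀ z ∈ S.V, ‖z‖ ^ 2 ≤ p z)
    {B : ℝ} {k : ℕ} (hYb : ∀ q ∈ S.M, Y q ≤ B * (1 + p q.1) ^ k) (hB : 0 ≤ B) {c : ℝ} (hc : 0 < c)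
    (hnull : ∀ᵐ x : Fin n → ℂ, (j₀.insertNth 0 x : Fin (n + 1) → ℂ) ∈ S.V) :
    Tendsto (slI S j₀ Y p c) (𝓝 0) (𝓝 (slI S j₀ Y p c 0)) := by
  obtain ⟨D, hD0, hD⟩ := gS_le hp hYb hB hc (2 * n + 1)
  unfold slI
  have hins : ∀ τ : ℂ, Continuous fun x : Fin n → ℂ => (j₀.insertNth τ x : Fin (n + 1) → ℂ) :=
    fun τ => (continuous_insertNth' j₀).comp (by fun_prop : Continuous fun x : Fin n → ℂ => (τ, x))
  refine tendsto_lintegral_filter_of_dominated_convergence
    (fun x => ENNReal.ofReal (D * (1 + ‖x‖) ^ (-((2 * n + 1 : ℕ) : ℝ)))) ?_ ?_ ?_ ?_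
  · exact Eventually.of_forall fun τ => (gS_measurable hY hpc c).comp (hins τ).measurable
  · refine Eventually.of_forall fun τ => Eventually.of_forall fun x => ?_
    refine (hD _).trans (ENNReal.ofReal_le_ofReal ?_)
    refine mul_le_mul_of_nonneg_left ?_ hD0.le
    exact Real.rpow_le_rpow_of_nonpos (by positivity)
      (by linarith [norm_le_insertNth j₀ τ x]) (neg_nonpos.2 (by positivity))
  · have h1 : Integrable (fun x : Fin n → ℂ => D * (1 + ‖x‖) ^ (-((2 * n + 1 : ℕ) : ℝ))) := by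
      refine (integrable_one_add_norm ?_).const_mul D
      rw [Module.finrank_pi_fintype]
      simp only [Complex.finrank_real_complex, Finset.sum_const, Finset.card_univ, Fintype.card_fin,
        smul_eq_mul]
      push_cast
      linarith
    have h2 := h1.2
    rw [hasFiniteIntegral_iff_ofReal (Eventually.of_forall fun x => by positivity)] at h2
    exact h2.ne
  · filter_upwards [hnull] with x hx
    have h1 := (gS_continuousAt hY hpc c hx).tendsto
    refine h1.comp ?_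
    have h2 : Continuous fun τ : ℂ => (j₀.insertNth τ x : Fin (n + 1) → ℂ) :=
      (continuous_insertNth' j₀).comp (by fun_prop : Continuous fun τ : ℂ => (τ, x))
    exact h2.tendsto 0

/-- integrals over `M` of functions supported near the slice -/
theorem lintegral_slab (j₀ : Fin (n + 1)) {Y : (Fin (n + 1) → ℂ) × ℕ → ℝ} (hY0 : ∀ q, 0 ≤ Y q)
    (hY : S.CD 0 (fun q => (Y q : ℂ))) {p : (Fin (n + 1) → ℂ) → ℝ} (hpc : ContinuousOn p S.V)
    (c : ℝ) (ε : ℝ) :
    ∫⁻ q in {q : (Fin (n + 1) → ℂ) × ℕ | ‖q.1 j₀‖ ≤ ε},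
      ENNReal.ofReal (Y q * Real.exp (-(c * p q.1))) ∂S.μ =
    ∫⁻ τ in closedBall (0 : ℂ) ε, slI S j₀ Y p c τ := by
  have hms : MeasurableSet {z : Fin (n + 1) → ℂ | ‖z j₀‖ ≤ ε} :=
    (isClosed_le (by fun_prop) continuous_const).measurableSet
  have hms' : MeasurableSet {q : (Fin (n + 1) → ℂ) × ℕ | ‖q.1 j₀‖ ≤ ε} := measurable_fst hms
  have hae : AEMeasurable (fun q : (Fin (n + 1) → ℂ) × ℕ =>
      ENNReal.ofReal (Y q * Real.exp (-(c * p q.1)))) S.μ := by
    refine AEMeasurable.ennreal_ofReal ?_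
    have h1 : AEMeasurable Y S.μ :=
      Complex.measurable_re.comp_aemeasurable (aestronglyMeasurable_of_CD hY).aemeasurable
    have h2 : S.CD 0 (fun q => ((p q.1 : ℝ) : ℂ)) := by
      refine CD.fst (f := fun z => ((p z : ℝ) : ℂ)) (contDiffOn_zero.2 ?_)
      exact Complex.continuous_ofReal.comp_continuousOn hpc
    have h3 : AEMeasurable (fun q : (Fin (n + 1) → ℂ) × ℕ => p q.1) S.μ :=
      Complex.measurable_re.comp_aemeasurable (aestronglyMeasurable_of_CD h2).aemeasurable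
    exact h1.mul (Real.measurable_exp.comp_aemeasurable (h3.const_mul c).neg)
  rw [← lintegral_indicator hms', lintegral_μ' (hae.indicator hms')]
  have h1 : ∫⁻ z in S.V, ∑ w ∈ S.fib z, ({q : (Fin (n + 1) → ℂ) × ℕ | ‖q.1 j₀‖ ≤ ε}.indicator
      (fun q => ENNReal.ofReal (Y q * Real.exp (-(c * p q.1)))) (z, w)) =
      ∫⁻ z, {z : Fin (n + 1) → ℂ | ‖z j₀‖ ≤ ε}.indicator (gS S Y p c) z := by
    rw [← lintegral_indicator S.isOpen.measurableSet]
    refine lintegral_congr fun z => ?_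
    by_cases hz : z ∈ S.V
    · rw [Set.indicator_of_mem hz]
      by_cases hz2 : ‖z j₀‖ ≤ ε
      · rw [Set.indicator_of_mem (show z ∈ {z : Fin (n + 1) → ℂ | ‖z j₀‖ ≤ ε} from hz2), gS,
          Set.indicator_of_mem hz, ENNReal.ofReal_sum_of_nonneg fun w _ =>
            mul_nonneg (hY0 _) (Real.exp_pos _).le]
        refine Finset.sum_congr rfl fun w _ => ?_
        rw [Set.indicator_of_mem (show (z, w) ∈ {q : (Fin (n + 1) → ℂ) × ℕ | ‖q.1 j₀‖ ≤ ε} from hz2)]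
      · rw [Set.indicator_of_notMem (show z ∉ {z : Fin (n + 1) → ℂ | ‖z j₀‖ ≤ ε} from hz2)]
        refine Finset.sum_eq_zero fun w _ => ?_
        rw [Set.indicator_of_notMem (show (z, w) ∉ {q : (Fin (n + 1) → ℂ) × ℕ | ‖q.1 j₀‖ ≤ ε} from hz2)]
    · rw [Set.indicator_of_notMem hz]
      by_cases hz2 : ‖z j₀‖ ≤ ε
      · rw [Set.indicator_of_mem (show z ∈ {z : Fin (n + 1) → ℂ | ‖z j₀‖ ≤ ε} from hz2), gS,
          Set.indicator_of_notMem hz]
      · rw [Set.indicator_of_notMem (show z ∉ {z : Fin (n + 1) → ℂ | ‖z j₀‖ ≤ ε} from hz2)]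
  rw [h1]
  have hgm := (gS_measurable hY hpc c)
  have h2 := (volume_preserving_piFinSuccAbove (fun _ : Fin (n + 1) => ℂ) j₀).symm
  rw [← h2.lintegral_comp (hgm.indicator hms), Measure.volume_eq_prod, lintegral_prod]
  · rw [← lintegral_indicator measurableSet_closedBall]
    refine lintegral_congr fun τ => ?_
    by_cases hτ : ‖τ‖ ≤ ε
    · rw [Set.indicator_of_mem (mem_closedBall_zero_iff.2 hτ), slI]
      refine lintegral_congr fun x => ?_
      have h3 : (MeasurableEquiv.piFinSuccAbove (fun _ : Fin (n + 1) => ℂ) j₀).symm (τ, x) =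
          (j₀.insertNth τ x : Fin (n + 1) → ℂ) := rfl
      rw [h3, Set.indicator_of_mem]
      show ‖(j₀.insertNth τ x : Fin (n + 1) → ℂ) j₀‖ ≤ ε
      rwa [Fin.insertNth_apply_same]
    · rw [Set.indicator_of_notMem (fun h => hτ (mem_closedBall_zero_iff.1 h))]
      refine (lintegral_eq_zero_iff' ?_).2 ?_ |>.trans rfl
      · exact (((hgm.indicator hms).comp h2.measurable).comp measurable_prodMk_left).aemeasurable
      · refine Eventually.of_forall fun x => ?_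
        have h3 : (MeasurableEquiv.piFinSuccAbove (fun _ : Fin (n + 1) => ℂ) j₀).symm (τ, x) =
          (j₀.insertNth τ x : Fin (n + 1) → ℂ) := rfl
        show Set.indicator _ _ _ = _
        rw [h3, Set.indicator_of_notMem]
        · rfl
        · show ¬ ‖(j₀.insertNth τ x : Fin (n + 1) → ℂ) j₀‖ ≤ ε
          rwa [Fin.insertNth_apply_same]
  · exact ((hgm.indicator hms).comp h2.measurable).aemeasurable

/-- **thin slabs** -/
theorem slab_bound (j₀ : Fin (n + 1)) {Y : (Fin (n + 1) → ℂ) × ℕ → ℝ} (hY0 : ∀ q, 0 ≤ Y q)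
    (hY : S.CD 0 (fun q => (Y q : ℂ))) {p : (Fin (n + 1) → ℂ) → ℝ} (hpc : ContinuousOn p S.V)
    (hp : ∀ z ∈ S.V, ‖z‖ ^ 2 ≤ p z)
    {B : ℝ} {k : ℕ} (hYb : ∀ q ∈ S.M, Y q ≤ B * (1 + p q.1) ^ k) (hB : 0 ≤ B) {c : ℝ} (hc : 0 < c)
    (hnull : ∀ᵐ x : Fin n → ℂ, (j₀.insertNth 0 x : Fin (n + 1) → ℂ) ∈ S.V) {η : ℝ≥0∞}
    (hη : 0 < η) : ∃ ε₀ > 0, ∀ ε, 0 < ε → ε < ε₀ →
      ∫⁻ q in {q : (Fin (n + 1) → ℂ) × ℕ | ‖q.1 j₀‖ ≤ ε},
        ENNReal.ofReal (Y q * Real.exp (-(c * p q.1))) ∂S.μ ≤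
      (slI S j₀ Y p 0 0 + η) * volume (closedBall (0 : ℂ) ε) := by
  have h1 := slI_tendsto j₀ hY hpc hp hYb hB hc hnull
  have hle : slI S j₀ Y p c 0 ≤ slI S j₀ Y p 0 0 := by
    unfold slI
    refine lintegral_mono fun x => ?_
    unfold gS
    by_cases hz : (j₀.insertNth 0 x : Fin (n + 1) → ℂ) ∈ S.V
    · rw [Set.indicator_of_mem hz, Set.indicator_of_mem hz]
      refine ENNReal.ofReal_le_ofReal (Finset.sum_le_sum fun w _ => ?_)
      have hp0 : 0 ≤ p (j₀.insertNth 0 x : Fin (n + 1) → ℂ) := (sq_nonneg _).trans (hp _ hz)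
      refine mul_le_mul_of_nonneg_left (Real.exp_le_exp.2 ?_) (hY0 _)
      nlinarith
    · rw [Set.indicator_of_notMem hz, Set.indicator_of_notMem hz]
  -- the slice integral is finite
  have hfin : slI S j₀ Y p c 0 ≠ ∞ := by
    obtain ⟨D, hD0, hD⟩ := gS_le hp hYb hB hc (2 * n + 1)
    have h3 : Integrable (fun x : Fin n → ℂ => D * (1 + ‖x‖) ^ (-((2 * n + 1 : ℕ) : ℝ))) := by
      refine (integrable_one_add_norm ?_).const_mul D
      rw [Module.finrank_pi_fintype]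
      simp only [Complex.finrank_real_complex, Finset.sum_const, Finset.card_univ, Fintype.card_fin,
        smul_eq_mul]
      push_cast
      linarith
    have h2 := h3.2
    rw [hasFiniteIntegral_iff_ofReal (Eventually.of_forall fun x => by positivity)] at h2
    refine ne_top_of_le_ne_top h2.ne ?_
    unfold slI
    refine lintegral_mono fun x => (hD _).trans (ENNReal.ofReal_le_ofReal ?_)
    refine mul_le_mul_of_nonneg_left ?_ hD0.le
    exact Real.rpow_le_rpow_of_nonpos (by positivity)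
      (by linarith [norm_le_insertNth j₀ 0 x]) (neg_nonpos.2 (by positivity))
  have h2 : ∀ᶠ τ in 𝓝 (0 : ℂ), slI S j₀ Y p c τ ≤ slI S j₀ Y p 0 0 + η := by
    have h3 : slI S j₀ Y p c 0 < slI S j₀ Y p c 0 + η := ENNReal.lt_add_right hfin hη.ne'
    filter_upwards [h1.eventually (gt_mem_nhds h3)] with τ hτ
    exact hτ.le.trans (add_le_add hle le_rfl)
  obtain ⟨ε₀, hε₀, h3⟩ := Metric.eventually_nhds_iff_ball.1 h2
  refine ⟨ε₀, hε₀, fun ε hε hεε => ?_⟩
  rw [lintegral_slab j₀ hY0 hY hpc]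
  calc ∫⁻ τ in closedBall (0 : ℂ) ε, slI S j₀ Y p c τ
      ≤ ∫⁻ τ in closedBall (0 : ℂ) ε, (slI S j₀ Y p 0 0 + η) :=
        setLIntegral_mono' measurableSet_closedBall fun τ hτ => h3 τ (by
          rw [mem_closedBall] at hτ
          rw [mem_ball]
          linarith)
    _ = _ := by rw [setLIntegral_const]

end Vale.Agent.P298.H283
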