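import Vale.Agent.P298.H755.Sec
import Vale.Agent.P298.H98.OTC2
import Vale.Agent.P298.H283.OTSlice

/-!
# P298, OT-D2 (helper283), part 1: integrals over the root sheets and over the surfaces `G_τ = 0`
-/

set_option linter.all false

open MeasureTheory Filter Topology Metric Set
open scoped ENNReal NNReal ComplexConjugate

namespace Vale.Agent.P298.H283

open Vale.Agent.P300.L2 Vale.Agent.P300.L2.Sheets Vale.Agent.P298 Vale.Agent.P298.H379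
  Vale.Agent.P298.H755

/-- the point of the base -/
def yy (p : ℂ × ℂ) (τ : ℂ) : Fin 3 → ℂ := ![p.1, p.2, τ]

@[simp] theorem yy_zero (p : ℂ × ℂ) (τ : ℂ) : yy p τ 0 = p.1 := rfl
@[simp] theorem yy_one (p : ℂ × ℂ) (τ : ℂ) : yy p τ 1 = p.2 := rfl
@[simp] theorem yy_two (p : ℂ × ℂ) (τ : ℂ) : yy p τ 2 = τ := rfl

theorem insertNth_two (τ : ℂ) (x : Fin 2 → ℂ) :
    ((2 : Fin 3).insertNth τ x : Fin 3 → ℂ) = yy (x 0, x 1) τ := by
  ext i
  fin_cases i <;> rfl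

theorem mp_yy : MeasurePreserving (fun q : ℂ × (ℂ × ℂ) => yy q.2 q.1) volume volume := by
  have h1 := (volume_preserving_piFinSuccAbove (fun _ : Fin 3 => ℂ) 2).symm
  have h2 := (volume_preserving_finTwoArrow ℂ).symm
  have h3 : MeasurePreserving (fun q : ℂ × (ℂ × ℂ) => (q.1, MeasurableEquiv.finTwoArrow.symm q.2))
      (volume : Measure (ℂ × (ℂ × ℂ))) (volume : Measure (ℂ × (Fin 2 → ℂ))) :=
    (MeasurePreserving.id volume).prod h2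
  have h4 := h1.comp h3
  have h5 : (fun q : ℂ × (ℂ × ℂ) => yy q.2 q.1) =
      (MeasurableEquiv.piFinSuccAbove (fun _ : Fin 3 => ℂ) 2).symm ∘
        (fun q : ℂ × (ℂ × ℂ) => (q.1, MeasurableEquiv.finTwoArrow.symm q.2)) := by
    funext q
    show yy q.2 q.1 = ((2 : Fin 3).insertNth q.1 (MeasurableEquiv.finTwoArrow.symm q.2) : Fin 3 → ℂ)
    rw [insertNth_two]
    rfl
  rw [h5]
  exact h4

theorem lintegral_yy {f : (Fin 3 → ℂ) → ℝ≥0∞} (hf : Measurable f) :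
    ∫⁻ z, f z = ∫⁻ τ : ℂ, ∫⁻ p : ℂ × ℂ, f (yy p τ) := by
  rw [← mp_yy.lintegral_comp hf, Measure.volume_eq_prod, lintegral_prod]
  exact (hf.comp mp_yy.measurable).aemeasurable

theorem ae_yy {P : (Fin 3 → ℂ) → Prop} (h : ∀ᵐ z : Fin 3 → ℂ, P z) :
    ∀ᵐ τ : ℂ, ∀ᵐ p : ℂ × ℂ, P (yy p τ) := by
  have h1 := mp_yy.quasiMeasurePreserving.ae h
  rw [Measure.volume_eq_prod] at h1
  exact Measure.ae_ae_of_ae_prod h1

variable {d : ℕ} {r : ℝ}

theorem V_eq (F : Fam d r) : F.V = H98.Vr F.c F.b r := by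
  ext z
  constructor
  · rintro ⟨h1, h2⟩
    refine ⟨mem_ball_zero_iff.1 h1, fun w hw => ?_⟩
    have h3 := F.D_ne_zero_iff.1 h2 w (by rw [F.eval_poly]; exact hw)
    rw [F.eval_derivative] at h3
    exact h3
  · rintro ⟨h1, h2⟩
    refine ⟨mem_ball_zero_iff.2 h1, F.D_ne_zero_iff.2 fun w hw => ?_⟩
    rw [F.eval_poly] at hw
    rw [F.eval_derivative]
    exact h2 w hw

theorem rts_eq (F : Fam d r) (y : Fin 3 → ℂ) : F.rts y = H98.rts F.c F.b y := by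
  ext w
  rw [F.mem_rts', H98.mem_rts (F.hc 2) F.hd, H98.eval_px]
  rfl

theorem ae_mem_V (F : Fam d r) : ∀ᵐ z : Fin 3 → ℂ, ‖z 2‖ < r → z ∈ F.V := by
  obtain ⟨p, hp⟩ := F.exists_mem_V
  have h1 := H98.dsc_null (F.hc 2) F.hd F.holo (r := r) ⟨_, by rw [← V_eq]; exact hp⟩
  rw [← V_eq] at h1
  have h2 : ∀ᵐ z : Fin 3 → ℂ, z ∉ H98.Ud r \ F.V := measure_eq_zero_iff_ae_notMem.1 h1
  filter_upwards [h2] with z hz hzr
  by_contra hcon
  exact hz ⟨hzr, hcon⟩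

/-- the constant family -/
noncomputable def cfam (F : Fam d r) : Fam d r where
  c := F.c
  b := fun _ => F.b 0
  hd := F.hd
  hr := F.hr
  hc := F.hc
  holo := differentiableOn_const _
  bdd := ⟨‖F.b 0‖, fun _ _ => le_rfl⟩
  red := F.red

theorem ae_slice (F : Fam d r) : ∀ᵐ p : ℂ × ℂ, yy p 0 ∈ F.V := by
  have h1 := ae_yy (ae_mem_V (cfam F))
  have h2 : ∃ τ ∈ ball (0 : ℂ) r, ∀ᵐ p : ℂ × ℂ, ‖yy p τ 2‖ < r → yy p τ ∈ (cfam F).V := by
    by_contra hcon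
    have h3 : volume (ball (0 : ℂ) r) ≤ 0 := by
      rw [← (ae_iff.1 h1 : volume {τ : ℂ | ¬ ∀ᵐ p : ℂ × ℂ, ‖yy p τ 2‖ < r → yy p τ ∈ (cfam F).V} = 0)]
      refine measure_mono fun τ hτ => ?_
      exact fun h => hcon ⟨τ, hτ, h⟩
    exact absurd h3 (not_le.2 (measure_ball_pos volume 0 F.hr))
  obtain ⟨τ, hτ, h3⟩ := h2
  filter_upwards [h3] with p hp
  have h4 := hp (mem_ball_zero_iff.1 hτ)
  rw [V_eq] at h4 ⊢
  refine ⟨by simpa using F.hr, ?_⟩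
  exact h4.2

/-- for almost every `τ` in the disc, almost every point of the slice belongs to `V` -/
theorem ae_ae_mem (F : Fam d r) :
    ∀ᵐ τ : ℂ, τ ∈ ball (0 : ℂ) r → ∀ᵐ p : ℂ × ℂ, yy p τ ∈ F.V := by
  filter_upwards [ae_yy (ae_mem_V F)] with τ hτ hτr
  filter_upwards [hτ] with p hp
  exact hp (mem_ball_zero_iff.1 hτr)

/-- the sum over the roots -/
theorem rootSum_eq (F : Fam d r) {z : Fin 3 → ℂ} (hz : z ∈ F.V) (φ : (Fin 3 → ℂ) → ℝ≥0∞) :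
    rootSum (F.G (z 2)) 0 φ (z 0, z 1) = ∑ i ∈ F.S.fib z,
      φ (pt (z 0, z 1) (F.rt (z, i))) / ‖pd 2 (F.G (z 2)) (pt (z 0, z 1) (F.rt (z, i)))‖ₑ ^ 2 := by
  rw [F.sum_rt hz (fun w => φ (pt (z 0, z 1) w) / ‖pd 2 (F.G (z 2)) (pt (z 0, z 1) w)‖ₑ ^ 2)]
  have h1 : Rts (F.G (z 2)) 0 (z 0, z 1) = (F.rts z : Set ℂ) := by
    ext w
    rw [Finset.mem_coe, F.mem_rts']
    constructor
    · exact fun h => h.1
    · intro h
      refine ⟨h, ?_⟩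
      have h3 := F.D_ne_zero_iff.1 hz.2 w (by rw [F.eval_poly]; exact h)
      rwa [F.eval_derivative] at h3
  unfold rootSum
  rw [h1]
  exact Finset.tsum_subtype (F.rts z)
    (fun w => φ (pt (z 0, z 1) w) / ‖pd 2 (F.G (z 2)) (pt (z 0, z 1) w)‖ₑ ^ 2)

/-- integrals over the sheets -/
theorem lintegral_mu_gS (F : Fam d r) {Y : (Fin 3 → ℂ) × ℕ → ℝ} (hY0 : ∀ q, 0 ≤ Y q)
    (hY : F.S.CD 0 (fun q => (Y q : ℂ))) (p : (Fin 3 → ℂ) → ℝ) :
    ∫⁻ q, ENNReal.ofReal (Y q) ∂F.S.μ = ∫⁻ z, gS F.S Y p 0 z := by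
  have hae : AEMeasurable (fun q : (Fin 3 → ℂ) × ℕ => ENNReal.ofReal (Y q)) F.S.μ := by
    refine AEMeasurable.ennreal_ofReal ?_
    exact Complex.measurable_re.comp_aemeasurable (aestronglyMeasurable_of_CD hY).aemeasurable
  rw [lintegral_μ' hae, ← lintegral_indicator F.S.isOpen.measurableSet]
  refine lintegral_congr fun z => ?_
  unfold gS
  by_cases hz : z ∈ F.S.V
  · rw [Set.indicator_of_mem hz, Set.indicator_of_mem hz]
    simp only [zero_mul, neg_zero, Real.exp_zero, mul_one]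
    rw [ENNReal.ofReal_sum_of_nonneg fun w _ => hY0 _]
  · rw [Set.indicator_of_notMem hz, Set.indicator_of_notMem hz]

theorem gS_eq (F : Fam d r) {Y : (Fin 3 → ℂ) × ℕ → ℝ} (hY0 : ∀ q, 0 ≤ Y q)
    (p : (Fin 3 → ℂ) → ℝ) {z : Fin 3 → ℂ} (hz : z ∈ F.V) :
    gS F.S Y p 0 z = ∑ i ∈ F.S.fib z, ENNReal.ofReal (Y (z, i)) := by
  unfold gS
  rw [Set.indicator_of_mem (show z ∈ F.S.V from hz)]
  simp only [zero_mul, neg_zero, Real.exp_zero, mul_one]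
  rw [ENNReal.ofReal_sum_of_nonneg fun w _ => hY0 _]

/-- the integral over the surfaces is bounded by the limit of the integrals over the sheets -/
theorem nu_le_of_tendsto (F : Fam d r) {Y : ℕ → (Fin 3 → ℂ) × ℕ → ℝ} (hY0 : ∀ m q, 0 ≤ Y m q)
    (hY : ∀ m, F.S.CD 0 (fun q => (Y m q : ℂ))) {K : ℝ≥0∞}
    (hK : ∀ m, ∫⁻ q, ENNReal.ofReal (Y m q) ∂F.S.μ ≤ K) {φ : ℂ → (Fin 3 → ℂ) → ℝ≥0∞}
    (hφ : ∀ q ∈ F.S.M, Tendsto (fun m => ENNReal.ofReal (Y m q)) atTop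
      (𝓝 (φ (q.1 2) (pt (q.1 0, q.1 1) (F.rt q)) /
        ‖pd 2 (F.G (q.1 2)) (pt (q.1 0, q.1 1) (F.rt q))‖ₑ ^ 2))) :
    ∫⁻ τ in ball (0 : ℂ) r, nu (F.G τ) 0 (φ τ) ≤ K := by
  obtain ⟨C, k0, hexh⟩ := F.exh
  have hpc : ContinuousOn F.p F.S.V := hexh.smooth.continuousOn
  set B : (Fin 3 → ℂ) → ℝ≥0∞ := fun z => liminf (fun m => gS F.S (Y m) F.p 0 z) atTop with hB
  have hgm : ∀ m, Measurable (gS F.S (Y m) F.p 0) := fun m => gS_measurable (hY m) hpc 0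
  have hBm : Measurable B := Measurable.liminf hgm
  have h1 : ∫⁻ z, B z ≤ K := by
    calc ∫⁻ z, B z ≤ liminf (fun m => ∫⁻ z, gS F.S (Y m) F.p 0 z) atTop :=
          lintegral_liminf_le hgm
      _ ≤ K := by
          refine liminf_le_of_frequently_le' (Frequently.of_forall fun m => ?_)
          rw [← lintegral_mu_gS F (hY0 m) (hY m) F.p]
          exact hK m
  refine le_trans ?_ h1
  rw [lintegral_yy hBm]
  refine le_trans ?_ (lintegral_mono_set (Set.subset_univ (ball (0 : ℂ) r))) |>.trans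
    (by rw [Measure.restrict_univ])
  refine lintegral_mono_ae ?_
  rw [ae_restrict_iff' measurableSet_ball]
  filter_upwards [ae_ae_mem F] with τ hτ hτr
  unfold nu
  refine lintegral_mono_ae ?_
  filter_upwards [hτ hτr] with p hp
  have h2 : rootSum (F.G τ) 0 (φ τ) p = ∑ i ∈ F.S.fib (yy p τ),
      φ τ (pt p (F.rt (yy p τ, i))) / ‖pd 2 (F.G τ) (pt p (F.rt (yy p τ, i)))‖ₑ ^ 2 :=
    rootSum_eq F hp (φ τ)
  rw [h2]
  refine le_of_eq ?_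
  simp only [hB]
  symm
  refine Tendsto.liminf_eq ?_
  simp only [gS_eq F (hY0 _) F.p hp]
  refine tendsto_finsetSum _ fun i hi => ?_
  exact hφ (yy p τ, i) (F.mem_M.2 ⟨hp, Finset.mem_range.1 hi⟩)

/-- the slice `τ = 0` -/
theorem slI_le (F : Fam d r) {Y : (Fin 3 → ℂ) × ℕ → ℝ} (hY0 : ∀ q, 0 ≤ Y q)
    {φ : (Fin 3 → ℂ) → ℝ≥0∞} (p : (Fin 3 → ℂ) → ℝ)
    (hφ : ∀ q ∈ F.S.M, q.1 2 = 0 → ENNReal.ofReal (Y q) ≤ φ (pt (q.1 0, q.1 1) (F.rt q)) /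
        ‖pd 2 (F.G 0) (pt (q.1 0, q.1 1) (F.rt q))‖ₑ ^ 2) :
    slI F.S (2 : Fin 3) Y p 0 0 ≤ nu (F.G 0) 0 φ := by
  unfold slI nu
  have h2 := (volume_preserving_finTwoArrow ℂ)
  calc ∫⁻ x : Fin 2 → ℂ, gS F.S Y p 0 ((2 : Fin 3).insertNth 0 x)
      ≤ ∫⁻ x : Fin 2 → ℂ, rootSum (F.G 0) 0 φ (MeasurableEquiv.finTwoArrow x) := by
        refine lintegral_mono fun x => ?_
        rw [insertNth_two]
        by_cases hz : yy (x 0, x 1) 0 ∈ F.V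
        · rw [gS_eq F hY0 p hz]
          have h3 : rootSum (F.G 0) 0 φ (x 0, x 1) = ∑ i ∈ F.S.fib (yy (x 0, x 1) 0),
              φ (pt (x 0, x 1) (F.rt (yy (x 0, x 1) 0, i))) /
                ‖pd 2 (F.G 0) (pt (x 0, x 1) (F.rt (yy (x 0, x 1) 0, i)))‖ₑ ^ 2 :=
            rootSum_eq F hz φ
          refine le_trans ?_ (le_of_eq h3.symm)
          refine Finset.sum_le_sum fun i hi => ?_
          exact hφ (yy (x 0, x 1) 0, i) (F.mem_M.2 ⟨hz, Finset.mem_range.1 hi⟩) rfl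
        · unfold gS
          rw [Set.indicator_of_notMem (show yy (x 0, x 1) 0 ∉ F.S.V from hz)]
          exact zero_le
    _ = ∫⁻ p : ℂ × ℂ, rootSum (F.G 0) 0 φ p := h2.lintegral_comp_emb
        (MeasurableEquiv.measurableEmbedding _) _

end Vale.Agent.P298.H283
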