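import Vale.Agent.P298.H283.OTSlice
import Vale.Agent.P298.H293.TwK
import Vale.Agent.P300.H435.L2.LeviLog

/-!
# P298, OT-D1, D2 (helper283): Ohsawa-Takegoshi on finite covers with the natural norm on the slice
-/

set_option linter.all false

open MeasureTheory Filter Topology Metric
open scoped ENNReal NNReal ComplexConjugate

namespace Vale.Agent.P298.H283

open Vale.Agent.P300.L2 Vale.Agent.P300.L2.Sheets Vale.Agent.P298.H293

section

variable {n N : ℕ} {S : Sheets n N}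

theorem cd_fst_real {p : (Fin n → ℂ) → ℝ} {m : ℕ} (hp : ContDiffOn ℝ m p S.V) :
    S.CD m (fun q => ((p q.1 : ℝ) : ℂ)) := by
  refine CD.fst (f := fun z => ((p z : ℝ) : ℂ)) ?_
  exact Complex.ofRealCLM.contDiff.comp_contDiffOn hp

theorem cd_norm_sq {v : (Fin n → ℂ) × ℕ → ℂ} (hv : S.Holo v) (m : ℕ) :
    S.CD m (fun q => ((‖v q‖ ^ 2 : ℝ) : ℂ)) := by
  refine CD.congr ((hv.CD m).mul (hv.CD m).conj) fun q _ => ?_
  rw [Complex.mul_conj']
  push_cast
  rfl

theorem cd_sq_exp {v : (Fin n → ℂ) × ℕ → ℂ} (hv : S.Holo v) {φ : (Fin n → ℂ) × ℕ → ℝ}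
    (hφ : S.CD 0 (fun q => (φ q : ℂ))) :
    S.CD 0 (fun q => ((‖v q‖ ^ 2 * Real.exp (-φ q) : ℝ) : ℂ)) := by
  have h1 : S.CD 0 (fun q => ((Real.exp (-φ q) : ℝ) : ℂ)) :=
    CD.comp_real (m := 0) (φ := fun t => Real.exp (-t)) (Real.contDiff_exp.comp contDiff_neg) hφ
  refine CD.congr ((cd_norm_sq hv 0).mul h1) fun q _ => ?_
  push_cast
  rfl

end

variable {n N : ℕ} {S : Sheets (n + 1) N}

/-- **OT-D1** -/
theorem ot_sheets {p : (Fin (n + 1) → ℂ) → ℝ} {C : ℝ} {k0 : ℕ} (hp : Exh S.V p C k0)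
    (j₀ : Fin (n + 1)) (hV : ∀ z ∈ S.V, ‖z j₀‖ ≤ 1 / 2)
    {φ : ℕ → (Fin (n + 1) → ℂ) × ℕ → ℝ} (hφ : ∀ m, S.CD 2 (fun q => (φ m q : ℂ)))
    (hanti : ∀ m, ∀ q ∈ S.M, φ (m + 1) q ≤ φ m q)
    (hφb : ∀ m, ∃ c : ℝ, ∀ q ∈ S.M, c ≤ φ m q)
    (hlevi : ∀ m, ∀ q ∈ S.M, ∀ β : Fin (n + 1) → ℂ, 0 ≤ S.levi (φ m) β q)
    {v : (Fin (n + 1) → ℂ) × ℕ → ℂ} (hv : S.Holo v)
    (hvb : ∃ (c : ℝ) (k : ℕ), ∀ q ∈ S.M, ‖v q‖ ≤ c * (1 + p q.1) ^ k)
    (hnull : ∀ᵐ x : Fin n → ℂ, (j₀.insertNth 0 x : Fin (n + 1) → ℂ) ∈ S.V)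
    {N0 : ℝ≥0∞} (hN0 : N0 ≠ ∞)
    (hN : ∀ m, slI S j₀ (fun q => ‖v q‖ ^ 2 * Real.exp (-φ m q)) p 0 0 ≤ N0) :
    ∃ F : (Fin (n + 1) → ℂ) × ℕ → ℂ, S.Holo F ∧
      (∀ m, ∫⁻ q, ENNReal.ofReal (‖F q‖ ^ 2 * Real.exp (-φ m q)) ∂S.μ ≤
        ENNReal.ofReal (otC * Real.pi) * N0) ∧
      ∀ q ∈ S.M, q.1 j₀ = 0 → F q = v q := by
  have hp0 : ∀ z ∈ S.V, 0 ≤ p z := fun z hz => (sq_nonneg _).trans (hp.norm_sq_le z hz)
  have hpi := Real.pi_pos
  have hotC := otC_pos
  set c : ℕ → ℝ := fun m => 1 / ((m : ℝ) + 1) with hc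
  have hc0 : ∀ m, 0 < c m := fun m => by simp only [hc]; positivity
  have hcd2 : S.CD 2 (fun q => ((p q.1 : ℝ) : ℂ)) :=
    cd_fst_real (m := 2) (hp.smooth.of_le (by norm_num))
  -- the weights
  set Ψ : ℕ → (Fin (n + 1) → ℂ) × ℕ → ℝ := fun m q => φ m q + c m * p q.1 with hΨ
  have hΨ2 : ∀ m, S.CD 2 (fun q => (Ψ m q : ℂ)) := by
    intro m
    refine CD.congr ((hφ m).add ((CD.const (c m : ℂ)).mul hcd2)) fun q _ => ?_
    simp only [hΨ]
    push_cast
    rfl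
  have hΨlevi : ∀ m, ∀ q ∈ S.M, ∀ β : Fin (n + 1) → ℂ, 0 ≤ S.levi (Ψ m) β q := by
    intro m q hq β
    have h1 := levi_lin (hφ m) hcd2 1 (c m) hq β
    have h2 : (fun q : (Fin (n + 1) → ℂ) × ℕ => 1 * φ m q + c m * p q.1) = Ψ m := by
      funext q
      simp only [hΨ, one_mul]
    rw [h2] at h1
    rw [h1]
    have h3 : 0 ≤ S.levi (fun q => p q.1) β q :=
      (Finset.sum_nonneg fun j _ => sq_nonneg _).trans (hp.levi q.1 hq.1 β)
    have h4 := hlevi m q hq β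
    have h5 := hc0 m
    positivity
  have hΨb : ∀ m, ∃ c : ℝ, ∀ q ∈ S.M, c ≤ Ψ m q := by
    intro m
    obtain ⟨b, hb⟩ := hφb m
    refine ⟨b, fun q hq => (hb q hq).trans ?_⟩
    have := mul_nonneg (hc0 m).le (hp0 q.1 hq.1)
    simp only [hΨ]
    linarith
  -- the constants
  set A : ℕ → ℝ := fun m => (N0.toReal + c m) * Real.pi with hA
  have hA0 : ∀ m, 0 ≤ A m := fun m => by
    have := hc0 m
    simp only [hA]
    positivity
  -- extension for every `m`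
  have hex : ∀ m, ∃ F : (Fin (n + 1) → ℂ) × ℕ → ℂ, S.Holo F ∧
      (∫⁻ q, ENNReal.ofReal (‖F q‖ ^ 2 * Real.exp (-Ψ m q)) ∂S.μ ≤ ENNReal.ofReal (otC * A m)) ∧
      ∀ q ∈ S.M, q.1 j₀ = 0 → F q = v q := by
    intro m
    obtain ⟨b, hb⟩ := hφb m
    obtain ⟨cv, k, hk⟩ := hvb
    have hYb : ∀ q ∈ S.M, ‖v q‖ ^ 2 * Real.exp (-φ m q) ≤
        (cv ^ 2 * Real.exp (-b)) * (1 + p q.1) ^ (2 * k) := by
      intro q hq
      have h1 : ‖v q‖ ^ 2 ≤ (cv * (1 + p q.1) ^ k) ^ 2 :=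
        pow_le_pow_left₀ (norm_nonneg _) (hk q hq) 2
      have h2 : Real.exp (-φ m q) ≤ Real.exp (-b) := Real.exp_le_exp.2 (by linarith [hb q hq])
      calc ‖v q‖ ^ 2 * Real.exp (-φ m q) ≤ (cv * (1 + p q.1) ^ k) ^ 2 * Real.exp (-b) := by gcongr
        _ = _ := by ring
    obtain ⟨ε₀, hε₀, h3⟩ := slab_bound j₀ (Y := fun q => ‖v q‖ ^ 2 * Real.exp (-φ m q))
      (fun q => by positivity) (cd_sq_exp hv ((hφ m).mono (by norm_num))) hp.smooth.continuousOn
      hp.norm_sq_le hYb (by positivity) (hc0 m) hnull (η := ENNReal.ofReal (c m))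
      (ENNReal.ofReal_pos.2 (hc0 m))
    set ε : ℝ := min (ε₀ / 2) (1 / 4) with hε
    have hε0 : 0 < ε := by positivity
    have hεlt : ε < ε₀ := (min_le_left _ _).trans_lt (by linarith)
    have h4 := h3 ε hε0 hεlt
    refine ot_eps hp j₀ hV (hΨ2 m) (hΨb m) (hΨlevi m) hv ⟨cv, k, hk⟩ hε0 (min_le_right _ _)
      (hA0 m) ?_
    calc ∫⁻ q in {q : (Fin (n + 1) → ℂ) × ℕ | ‖q.1 j₀‖ ≤ ε},
          ENNReal.ofReal (‖v q‖ ^ 2 * Real.exp (-Ψ m q)) ∂S.μ
        = ∫⁻ q in {q : (Fin (n + 1) → ℂ) × ℕ | ‖q.1 j₀‖ ≤ ε},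
          ENNReal.ofReal ((‖v q‖ ^ 2 * Real.exp (-φ m q)) * Real.exp (-(c m * p q.1))) ∂S.μ := by
          refine lintegral_congr fun q => ?_
          rw [mul_assoc, ← Real.exp_add]
          congr 3
          simp only [hΨ]
          ring
      _ ≤ (slI S j₀ (fun q => ‖v q‖ ^ 2 * Real.exp (-φ m q)) p 0 0 + ENNReal.ofReal (c m)) *
            volume (closedBall (0 : ℂ) ε) := h4
      _ ≤ (N0 + ENNReal.ofReal (c m)) * volume (closedBall (0 : ℂ) ε) := by
          gcongr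
          exact hN m
      _ = ENNReal.ofReal (A m * ε ^ 2) := by
          rw [Complex.volume_closedBall]
          have h5 : N0 + ENNReal.ofReal (c m) = ENNReal.ofReal (N0.toReal + c m) := by
            rw [ENNReal.ofReal_add ENNReal.toReal_nonneg (hc0 m).le, ENNReal.ofReal_toReal hN0]
          have h6 : ((NNReal.pi : NNReal) : ℝ≥0∞) = ENNReal.ofReal Real.pi := by
            rw [← ENNReal.ofReal_coe_nnreal, NNReal.coe_real_pi]
          rw [h5, h6, ← ENNReal.ofReal_pow hε0.le, ← ENNReal.ofReal_mul (by positivity),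
            ← ENNReal.ofReal_mul (by have := hc0 m; positivity)]
          congr 1
          simp only [hA]
          ring
  choose F hF1 hF2 hF3 using hex
  -- the limit
  have hΨanti : ∀ m, ∀ q ∈ S.M, Ψ (m + 1) q ≤ Ψ m q := by
    intro m q hq
    have h1 := hanti m q hq
    have h2 : c (m + 1) ≤ c m := by
      simp only [hc]
      push_cast
      exact one_div_le_one_div_of_le (by positivity) (by linarith)
    have h3 := mul_le_mul_of_nonneg_right h2 (hp0 q.1 hq.1)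
    simp only [hΨ]
    linarith
  have hclim : Tendsto c atTop (𝓝 0) := tendsto_one_div_add_atTop_nhds_zero_nat
  have hblim : Tendsto (fun m => ENNReal.ofReal (otC * A m)) atTop
      (𝓝 (ENNReal.ofReal (otC * Real.pi) * N0)) := by
    have h1 : Tendsto (fun m => otC * A m) atTop (𝓝 (otC * ((N0.toReal + 0) * Real.pi))) :=
      (((tendsto_const_nhds.add hclim).mul_const _).const_mul _)
    have h2 := (ENNReal.continuous_ofReal.tendsto _).comp h1
    have h3 : ENNReal.ofReal (otC * ((N0.toReal + 0) * Real.pi)) =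
        ENNReal.ofReal (otC * Real.pi) * N0 := by
      conv_rhs => rw [← ENNReal.ofReal_toReal hN0]
      rw [← ENNReal.ofReal_mul (by positivity)]
      congr 1
      ring
    rw [h3] at h2
    exact h2
  obtain ⟨G, hG1, hG2, φ', hφ'1, hφ'2⟩ := holo_limit hp (Ψ := Ψ)
    (fun m => (hΨ2 m).mono (by norm_num)) hΨanti (F := F) hF1
    (B := ENNReal.ofReal (otC * ((N0.toReal + 1) * Real.pi))) ENNReal.ofReal_ne_top
    (b := fun m => ENNReal.ofReal (otC * A m)) (fun m => by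
      refine ENNReal.ofReal_le_ofReal ?_
      have h1 : c m ≤ 1 := by
        simp only [hc]
        rw [div_le_one (by positivity)]
        have : (0 : ℝ) ≤ m := Nat.cast_nonneg m
        linarith
      simp only [hA]
      gcongr) hblim hF2
  refine ⟨G, hG1, fun m => ?_, fun q hq hq0 => ?_⟩
  · -- remove the exhaustion function
    have hGm : ∀ j, AEMeasurable (fun q => ENNReal.ofReal
        (‖G q‖ ^ 2 * Real.exp (-(φ m q + c j * p q.1)))) S.μ := by
      intro j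
      refine AEMeasurable.ennreal_ofReal ?_
      have h2 := (aestronglyMeasurable_of_CD (hG1.CD 0)).norm.aemeasurable
      have h3 : AEMeasurable (φ m) S.μ :=
        Complex.measurable_re.comp_aemeasurable
          (aestronglyMeasurable_of_CD ((hφ m).mono (m' := 0) (by norm_num))).aemeasurable
      have h4 : AEMeasurable (fun q : (Fin (n + 1) → ℂ) × ℕ => p q.1) S.μ :=
        Complex.measurable_re.comp_aemeasurable
          (aestronglyMeasurable_of_CD (hcd2.mono (m' := 0) (by norm_num))).aemeasurable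
      exact (h2.pow_const 2).mul (Real.measurable_exp.comp_aemeasurable
        (h3.add (h4.const_mul (c j))).neg)
    calc ∫⁻ q, ENNReal.ofReal (‖G q‖ ^ 2 * Real.exp (-φ m q)) ∂S.μ
        = ∫⁻ q, liminf (fun j => ENNReal.ofReal
            (‖G q‖ ^ 2 * Real.exp (-(φ m q + c j * p q.1)))) atTop ∂S.μ := by
          refine lintegral_congr fun q => ?_
          refine (Tendsto.liminf_eq ?_).symm
          refine (ENNReal.continuous_ofReal.tendsto _).comp ?_
          refine Tendsto.const_mul _ ?_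
          have h1 : Tendsto (fun j => -(φ m q + c j * p q.1)) atTop
              (𝓝 (-(φ m q + 0 * p q.1))) :=
            (tendsto_const_nhds.add (hclim.mul_const _)).neg
          rw [zero_mul, add_zero] at h1
          exact (Real.continuous_exp.tendsto _).comp h1
      _ ≤ liminf (fun j => ∫⁻ q, ENNReal.ofReal
            (‖G q‖ ^ 2 * Real.exp (-(φ m q + c j * p q.1))) ∂S.μ) atTop :=
          lintegral_liminf_le' hGm
      _ ≤ ENNReal.ofReal (otC * Real.pi) * N0 := by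
          refine liminf_le_of_frequently_le' (Eventually.frequently ?_)
          filter_upwards [eventually_ge_atTop m] with j hj
          refine le_trans (lintegral_mono_ae ?_) (hG2 j)
          filter_upwards [ae_mem_M (S := S)] with q hq
          refine ENNReal.ofReal_le_ofReal ?_
          have h5 : φ j q ≤ φ m q :=
            antitone_nat_of_succ_le (f := fun m => φ m q) (fun m => hanti m q hq) hj
          have h6 : Ψ j q ≤ φ m q + c j * p q.1 := by simp only [hΨ]; linarith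
          gcongr
  · have h1 := hφ'2 q hq
    have h2 : (fun j => F (φ' j) q) = fun _ => v q := by
      funext j
      exact hF3 _ q hq hq0
    rw [h2] at h1
    exact (tendsto_nhds_unique h1 tendsto_const_nhds)

/-! ### The logarithmic weights -/

section Log

variable {n N : ℕ} {S : Sheets n N}

/-- `κ log (|H|² + 1/(m+1))` -/
noncomputable def lw (κ : ℝ) (H : (Fin n → ℂ) × ℕ → ℂ) (m : ℕ) (q : (Fin n → ℂ) × ℕ) : ℝ :=
  κ * Real.log (1 / ((m : ℝ) + 1) + ‖H q‖ ^ 2)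

theorem lw_cd {H : (Fin n → ℂ) × ℕ → ℂ} (hH : S.Holo H) (κ : ℝ) (m : ℕ) :
    S.CD 2 (fun q => (lw κ H m q : ℂ)) := by
  have h1 := CD.log_normSq_sum (F := fun _ : Fin 1 => H) (fun _ => hH) 2
    (s := 1 / ((m : ℝ) + 1)) (by positivity)
  refine CD.congr ((CD.const (κ : ℂ)).mul h1) fun q _ => ?_
  simp only [lw, Finset.univ_unique, Finset.sum_const, Finset.card_singleton, one_smul]
  push_cast
  rfl

theorem lw_levi {H : (Fin n → ℂ) × ℕ → ℂ} (hH : S.Holo H) {κ : ℝ} (hκ : 0 ≤ κ) (m : ℕ)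
    {q : (Fin n → ℂ) × ℕ} (hq : q ∈ S.M) (β : Fin n → ℂ) : 0 ≤ S.levi (lw κ H m) β q := by
  have hs : 0 < 1 / ((m : ℝ) + 1) := by positivity
  have h1 := levi_log_ge (F := fun _ : Fin 1 => H) (fun _ => hH) hs hq β
  have h2 := CD.log_normSq_sum (F := fun _ : Fin 1 => H) (fun _ => hH) 2 hs
  have h3 := levi_lin h2 h2 κ 0 hq β
  have h4 : (fun q => κ * Real.log (1 / ((m : ℝ) + 1) + ∑ j : Fin 1, ‖H q‖ ^ 2) +
      0 * Real.log (1 / ((m : ℝ) + 1) + ∑ j : Fin 1, ‖H q‖ ^ 2)) = lw κ H m := by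
    funext q
    simp only [lw, Finset.univ_unique, Finset.sum_const, Finset.card_singleton, one_smul, zero_mul,
      add_zero]
  rw [h4] at h3
  rw [h3, zero_mul, add_zero]
  refine mul_nonneg hκ (le_trans ?_ h1)
  positivity

theorem lw_anti {H : (Fin n → ℂ) × ℕ → ℂ} {κ : ℝ} (hκ : 0 ≤ κ) (m : ℕ) (q : (Fin n → ℂ) × ℕ) :
    lw κ H (m + 1) q ≤ lw κ H m q := by
  refine mul_le_mul_of_nonneg_left (Real.log_le_log (by positivity) ?_) hκ
  have : 1 / (((m + 1 : ℕ) : ℝ) + 1) ≤ 1 / ((m : ℝ) + 1) := by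
    push_cast
    exact one_div_le_one_div_of_le (by positivity) (by linarith)
  linarith

theorem lw_ge {H : (Fin n → ℂ) × ℕ → ℂ} {κ : ℝ} (hκ : 0 ≤ κ) (m : ℕ) (q : (Fin n → ℂ) × ℕ) :
    κ * Real.log (1 / ((m : ℝ) + 1)) ≤ lw κ H m q := by
  refine mul_le_mul_of_nonneg_left (Real.log_le_log (by positivity) ?_) hκ
  have := sq_nonneg ‖H q‖
  linarith

theorem exp_lw {H : (Fin n → ℂ) × ℕ → ℂ} {κ : ℝ} (m : ℕ) (q : (Fin n → ℂ) × ℕ) :
    Real.exp (-lw κ H m q) = (1 / ((m : ℝ) + 1) + ‖H q‖ ^ 2) ^ (-κ) := by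
  rw [lw, ← neg_mul, mul_comm, Real.rpow_def_of_pos (by positivity)]

end Log

end Vale.Agent.P298.H283
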