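import Vale.Agent.P298.H283.FamI
import Vale.Agent.P298.H755.Link
import Vale.Agent.P298.H283.OTSh
import Vale.Agent.P298.H379.Poly

/-!
# P298, OT-D2 (helper283), part 2: from holomorphic functions on the root sheets to polynomials
-/

set_option linter.all false

open MeasureTheory Filter Topology Metric Set
open scoped ENNReal NNReal ComplexConjugate

namespace Vale.Agent.P298.H283

open Vale.Agent.P300.L2 Vale.Agent.P300.L2.Sheets Vale.Agent.P298 Vale.Agent.P298.H379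
  Vale.Agent.P298.H755

/-! ### Polynomials are determined by their values -/

section

variable {d e : ℕ}

theorem ev_sub (a b : Q d e) (x : Fin 3 → ℂ) : ev (a - b) x = ev a x - ev b x := by
  unfold ev
  rw [← Finset.sum_sub_distrib]
  refine Finset.sum_congr rfl fun α _ => ?_
  rw [Pi.sub_apply, sub_mul]

theorem ev_injective {h : Q d e} (H : ∀ x, ev h x = 0) : h = 0 := by
  classical
  let m : Mon d e → (Fin 3 →₀ ℕ) := fun α => Finsupp.equivFunOnFinite.symm (fun i => (α.1 i : ℕ))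
  have hm : Function.Injective m := by
    intro α β hαβ
    have h1 := Finsupp.equivFunOnFinite.symm.injective hαβ
    apply Subtype.ext
    funext i
    exact Fin.ext (congrFun h1 i)
  let P : MvPolynomial (Fin 3) ℂ := ∑ α, MvPolynomial.monomial (m α) (h α)
  have h1 : P = 0 := by
    apply MvPolynomial.funext
    intro x
    rw [map_zero, ← H x]
    simp only [P, map_sum, MvPolynomial.eval_monomial]
    unfold ev
    refine Finset.sum_congr rfl fun α _ => ?_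
    rw [Finsupp.prod_fintype _ _ (fun i => pow_zero _)]
    rfl
  funext α
  have h2 : P.coeff (m α) = h α := by
    simp only [P, MvPolynomial.coeff_sum, MvPolynomial.coeff_monomial]
    rw [Finset.sum_eq_single α]
    · simp
    · intro β _ hβ
      rw [if_neg]
      exact fun h => hβ (hm h)
    · simp
  rw [← h2, h1]
  simp

/-- the polynomial in the last variable -/
noncomputable def lastP (h : Q d e) (p : ℂ × ℂ) : Polynomial ℂ :=
  ∑ α, Polynomial.C (h α * (p.1 ^ (α.1 0 : ℕ) * p.2 ^ (α.1 1 : ℕ))) * Polynomial.X ^ (α.1 2 : ℕ)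

theorem eval_lastP (h : Q d e) (p : ℂ × ℂ) (w : ℂ) : (lastP h p).eval w = ev h (pt p w) := by
  unfold lastP ev
  rw [Polynomial.eval_finsetSum]
  refine Finset.sum_congr rfl fun α _ => ?_
  simp only [Polynomial.eval_mul, Polynomial.eval_C, Polynomial.eval_pow, Polynomial.eval_X,
    Fin.prod_univ_three, pt, Matrix.cons_val_zero, Matrix.cons_val_one, Matrix.cons_val]
  ring

theorem degree_lastP (hd : 0 < d) (h : Q d e) (p : ℂ × ℂ) : (lastP h p).degree < d := by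
  unfold lastP
  refine (Polynomial.degree_sum_le _ _).trans_lt ?_
  rw [Finset.sup_lt_iff (by exact_mod_cast WithBot.bot_lt_coe d)]
  intro α _
  refine (Polynomial.degree_C_mul_X_pow_le _ _).trans_lt ?_
  exact_mod_cast α.2.2

theorem continuous_ev' (h : Q d e) : Continuous (ev h) := (contDiff_ev h (n := 0)).continuous

theorem norm_ev_le (h : Q d e) {x : Fin 3 → ℂ} {X : ℝ} (hX : 1 ≤ X) (hx : ∀ i, ‖x i‖ ≤ X) :
    ‖ev h x‖ ≤ (∑ α, ‖h α‖) * X ^ e := by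
  unfold ev
  rw [Finset.sum_mul]
  refine (norm_sum_le _ _).trans (Finset.sum_le_sum fun α _ => ?_)
  rw [norm_mul, norm_prod]
  refine mul_le_mul_of_nonneg_left ?_ (norm_nonneg _)
  have hX0 : 0 ≤ X := by linarith
  calc ∏ i, ‖x i ^ (α.1 i : ℕ)‖ ≤ ∏ i, X ^ (α.1 i : ℕ) := by
        refine Finset.prod_le_prod (fun i _ => norm_nonneg _) fun i _ => ?_
        rw [norm_pow]
        exact pow_le_pow_left₀ (norm_nonneg _) (hx i) _
    _ = X ^ ((α.1 0 : ℕ) + α.1 1 + α.1 2) := by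
        rw [Fin.prod_univ_three, pow_add, pow_add]
    _ ≤ X ^ e := pow_le_pow_right₀ hX α.2.1

end

variable {d e : ℕ} {r : ℝ}

/-- a polynomial in `Q d e` is determined by its values on a surface `G_τ = 0` -/
theorem eq_of_slice (F : Fam d r) {g g' : Q d e} {τ : ℂ} (hV : ∀ᵐ p : ℂ × ℂ, yy p τ ∈ F.V)
    (heq : ∀ p : ℂ × ℂ, yy p τ ∈ F.V → ∀ w ∈ F.rts (yy p τ), ev g (pt p w) = ev g' (pt p w)) :
    g = g' := by
  have h1 : ∀ p : ℂ × ℂ, yy p τ ∈ F.V → ∀ w, ev (g - g') (pt p w) = 0 := by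
    intro p hp w
    have h2 : lastP (g - g') p = 0 := by
      refine Polynomial.eq_zero_of_degree_lt_of_eval_finset_eq_zero (F.rts (yy p τ)) ?_ ?_
      · rw [F.card_rts hp.2]
        exact degree_lastP F.hd _ _
      · intro z hz
        rw [eval_lastP, ev_sub, heq p hp z hz, sub_self]
    rw [← eval_lastP, h2, Polynomial.eval_zero]
  have h2 : ∀ w : ℂ, ∀ p : ℂ × ℂ, ev (g - g') (pt p w) = 0 := by
    intro w
    have h3 : (fun p : ℂ × ℂ => ev (g - g') (pt p w)) =ᵐ[volume] fun _ => 0 := by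
      filter_upwards [hV] with p hp
      exact h1 p hp w
    have h4 : Continuous fun p : ℂ × ℂ => ev (g - g') (pt p w) :=
      (continuous_ev' _).comp (continuous_pt.comp (by fun_prop : Continuous fun p : ℂ × ℂ => (p, w)))
    have h5 := (Continuous.ae_eq_iff_eq volume h4 continuous_const).1 h3
    exact fun p => congrFun h5 p
  have h3 : g - g' = 0 := by
    apply ev_injective
    intro x
    have := h2 (x 2) (x 0, x 1)
    have h4 : pt (x 0, x 1) (x 2) = x := by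
      ext i
      fin_cases i <;> rfl
    rwa [h4] at this
  exact sub_eq_zero.1 h3

/-! ### Labels -/

open Classical in
/-- the label of a root -/
noncomputable def lab (F : Fam d r) (y : Fin 3 → ℂ) (z : ℂ) : ℕ :=
  if h : ∃ i, i < d ∧ F.rt (y, i) = z then h.choose else 0

theorem lab_rt (F : Fam d r) {y : Fin 3 → ℂ} {i : ℕ} (hq : (y, i) ∈ F.S.M) :
    lab F y (F.rt (y, i)) = i := by
  have hm := F.mem_M.1 hq
  have h : ∃ j, j < d ∧ F.rt (y, j) = F.rt (y, i) := ⟨i, hm.2, rfl⟩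
  unfold lab
  rw [dif_pos h]
  exact F.rt_injOn hm.1 (Finset.mem_coe.2 (Finset.mem_range.2 h.choose_spec.1))
    (Finset.mem_coe.2 (Finset.mem_range.2 hm.2)) h.choose_spec.2

theorem Vr_subset (F : Fam d r) {r' : ℝ} (hr' : r' ≤ r) : H98.Vr F.c F.b r' ⊆ F.V := by
  rw [V_eq]
  intro y hy
  exact ⟨hy.1.trans_le hr', hy.2⟩

theorem locRt (F : Fam d r) {r' : ℝ} (hr' : r' ≤ r) {Fs : (Fin 3 → ℂ) × ℕ → ℂ}
    (hFs : F.S.Holo Fs) : H98.LocRt F.c F.b r' (fun y z => Fs (y, lab F y z)) := by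
  intro y₀ hy₀
  obtain ⟨W, s, hW, hyW, hWV, hs, hfib⟩ := F.S.loc y₀ (Vr_subset F hr' hy₀)
  refine ⟨W, hW, hyW, fun i y => F.rt (y, s i y), fun i => F.holo_rt W (s i) (hs i), ?_, ?_, ?_⟩
  · intro y hy i j hij
    have hm : ∀ i, (y, s i y) ∈ F.S.M := fun i => ⟨hWV hy, F.S.mem_fib (hs i) y hy⟩
    have h1 := F.rt_injOn (z := y) (hWV hy) (Finset.mem_coe.2 (F.S.mem_fib (hs i) y hy))
      (Finset.mem_coe.2 (F.S.mem_fib (hs j) y hy)) hij
    exact (hfib y hy).1 h1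
  · intro y hy i
    exact F.rt_root (q := (y, s i y)) ⟨hWV hy, F.S.mem_fib (hs i) y hy⟩
  · intro i
    refine (hFs W (s i) (hs i)).congr fun y hy => ?_
    show Fs (y, lab F y (F.rt (y, s i y))) = _
    rw [lab_rt F ⟨hWV hy, F.S.mem_fib (hs i) y hy⟩]

theorem sum_lab (F : Fam d r) {y : Fin 3 → ℂ} (hy : y ∈ F.V) (Fs : (Fin 3 → ℂ) × ℕ → ℂ) :
    ∑ z ∈ H98.rts F.c F.b y, ‖Fs (y, lab F y z)‖ₑ ^ 2 = ∑ i ∈ F.S.fib y, ‖Fs (y, i)‖ₑ ^ 2 := by
  rw [← rts_eq, ← F.sum_rt hy (fun z => ‖Fs (y, lab F y z)‖ₑ ^ 2)]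
  refine Finset.sum_congr rfl fun i hi => ?_
  rw [lab_rt F ⟨hy, hi⟩]

/-- comparison of the weights -/
theorem weight_le (F : Fam d r) {h : ℂ → Q d e} (hh : DifferentiableOn ℂ h (ball 0 r)) {r' : ℝ}
    (hr' : r' < r) {κ : ℝ} (hκ : 0 ≤ κ) :
    ∃ C' : ℝ, 0 < C' ∧ ∀ q ∈ F.S.M, ‖q.1 2‖ < r' →
      H98.wt (e * κ) (H98.xp q.1) ≤ ENNReal.ofReal (C' * Real.exp (-lw κ (F.evr h) 0 q)) := by
  obtain ⟨B, hB⟩ := F.bdd
  have hB0 : 0 ≤ B := (norm_nonneg _).trans (hB 0 (mem_ball_self F.hr))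
  obtain ⟨B', hB'0, hB'⟩ := H98.coeff_bound (c := F.c) (b := F.b) (r := r) hB0
    (fun τ hτ α => (norm_le_pi_norm _ α).trans (hB τ hτ))
  obtain ⟨K, hK1, hK⟩ := H98.root_bound (F.hc 2) F.hd hB'0 hB'
  obtain ⟨A, hA⟩ : ∃ A : ℝ, ∀ τ ∈ closedBall (0 : ℂ) r', ∑ α, ‖h τ α‖ ≤ A := by
    have hc : ContinuousOn (fun τ => ∑ α, ‖h τ α‖) (closedBall (0 : ℂ) r') := by
      refine continuousOn_finset_sum _ fun α _ => ?_
      have h1 := hh.continuousOn.mono (closedBall_subset_ball hr' : closedBall (0 : ℂ) r' ⊆ ball 0 r)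
      exact ((continuous_apply α).comp_continuousOn h1).norm
    obtain ⟨A, hA⟩ := (isCompact_closedBall (0 : ℂ) r').exists_bound_of_continuousOn hc
    exact ⟨A, fun τ hτ => (le_abs_self _).trans (hA τ hτ)⟩
  have hK0 : 0 < K := by linarith
  refine ⟨((1 + A ^ 2) * K ^ (2 * e)) ^ κ, by positivity, fun q hq hqr => ?_⟩
  set X : ℝ := 1 + ‖H98.xp q.1‖ with hX
  have hX1 : 1 ≤ X := by rw [hX]; linarith [norm_nonneg (H98.xp q.1)]
  have hX0 : 0 < X := by linarith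
  have hKX : 1 ≤ K * X := one_le_mul_of_one_le_of_one_le hK1 hX1
  have hroot : ‖F.rt q‖ ≤ K * X := by
    refine hK q.1 ?_ _ ?_
    · exact mem_ball_zero_iff.1 (F.mem_M.1 hq).1.1
    · rw [H98.eval_px]
      exact F.rt_root hq
  have h0 : ‖q.1 0‖ ≤ K * X := by
    have h1 := H98.norm_zero_le q.1
    nlinarith
  have h1 : ‖q.1 1‖ ≤ K * X := by
    have h1 := H98.norm_one_le q.1
    nlinarith
  have h2 : ‖F.evr h q‖ ≤ A * (K * X) ^ e := by
    unfold Fam.evr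
    refine (norm_ev_le _ hKX ?_).trans ?_
    · intro i
      fin_cases i
      · exact h0
      · exact h1
      · exact hroot
    · refine mul_le_mul_of_nonneg_right ?_ (by positivity)
      exact hA _ (mem_closedBall_zero_iff.2 hqr.le)
  have h3 : 1 + ‖F.evr h q‖ ^ 2 ≤ ((1 + A ^ 2) * K ^ (2 * e)) * X ^ (2 * e) := by
    have h4 : ‖F.evr h q‖ ^ 2 ≤ (A * (K * X) ^ e) ^ 2 := pow_le_pow_left₀ (norm_nonneg _) h2 2
    have h5 : (1 : ℝ) ≤ (K * X) ^ (2 * e) := one_le_pow₀ hKX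
    have h6 : (A * (K * X) ^ e) ^ 2 = A ^ 2 * (K * X) ^ (2 * e) := by
      rw [mul_pow, ← pow_mul, mul_comm e 2]
    calc 1 + ‖F.evr h q‖ ^ 2 ≤ (K * X) ^ (2 * e) + A ^ 2 * (K * X) ^ (2 * e) := by linarith
      _ = _ := by rw [mul_pow]; ring
  rw [exp_lw, H98.wt]
  refine ENNReal.ofReal_le_ofReal ?_
  have h4 : (1 / (((0 : ℕ) : ℝ) + 1) + ‖F.evr h q‖ ^ 2) = 1 + ‖F.evr h q‖ ^ 2 := by norm_num
  rw [h4]
  have h5 : (((1 + A ^ 2) * K ^ (2 * e)) * X ^ (2 * e)) ^ (-κ) ≤ (1 + ‖F.evr h q‖ ^ 2) ^ (-κ) :=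
    Real.rpow_le_rpow_of_nonpos (by positivity) h3 (by linarith)
  have h6 : (((1 + A ^ 2) * K ^ (2 * e)) * X ^ (2 * e)) ^ (-κ) =
      ((1 + A ^ 2) * K ^ (2 * e)) ^ (-κ) * X ^ (-2 * (e * κ)) := by
    rw [Real.mul_rpow (by positivity) (by positivity), ← Real.rpow_natCast X, ← Real.rpow_mul hX0.le]
    congr 2
    push_cast
    ring
  have hM : 0 < (1 + A ^ 2) * K ^ (2 * e) := by positivity
  calc X ^ (-2 * (e * κ)) = ((1 + A ^ 2) * K ^ (2 * e)) ^ κ *
        (((1 + A ^ 2) * K ^ (2 * e)) ^ (-κ) * X ^ (-2 * (e * κ))) := by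
        have h7 : ((1 + A ^ 2) * K ^ (2 * e)) ^ κ * ((1 + A ^ 2) * K ^ (2 * e)) ^ (-κ) = 1 := by
          rw [← Real.rpow_add hM, add_neg_cancel, Real.rpow_zero]
        rw [← mul_assoc _ _ (X ^ (-2 * (e * κ))), h7, one_mul]
    _ ≤ _ := by
        rw [← h6]
        exact mul_le_mul_of_nonneg_left h5 (by positivity)

/-- the extension given by `Fs` on smaller discs -/
theorem otc_small (hd : 3 < d) (F : Fam d r) {h : ℂ → Q d e}
    (hh : DifferentiableOn ℂ h (ball 0 r)) {r' : ℝ} (hr0 : 0 < r')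
    (hr' : r' < r) {k : ℝ} (hk : 1 ≤ k) (hke : k * ((d : ℝ) - 4) ≤ e)
    {Fs : (Fin 3 → ℂ) × ℕ → ℂ} (hFs : F.S.Holo Fs)
    (hint : ∫⁻ q, ENNReal.ofReal (‖Fs q‖ ^ 2 * Real.exp (-lw (1 - 1 / k) (F.evr h) 0 q)) ∂F.S.μ ≠ ⊤)
    (hH : F.S.Holo (F.evr h)) :
    ∃ g : ℂ → Q d e, DifferentiableOn ℂ g (ball 0 r') ∧ ∀ q ∈ F.S.M, ‖q.1 2‖ < r' →
      F.evr g q = Fs q * F.dG q := by
  obtain ⟨B, hB⟩ := F.bdd
  have hB0 : 0 ≤ B := (norm_nonneg _).trans (hB 0 (mem_ball_self F.hr))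
  have hκ : 0 ≤ 1 - 1 / k := by
    rw [sub_nonneg, div_le_one (by linarith)]
    exact hk
  have hne : (H98.Vr F.c F.b r').Nonempty := by
    obtain ⟨p, hp⟩ := F.exists_mem_V
    rw [V_eq] at hp
    exact ⟨_, by simpa using hr0, hp.2⟩
  obtain ⟨C', hC', hw⟩ := weight_le F hh hr' hκ
  have hopen : IsOpen (H98.Vr F.c F.b r') := H98.isOpen_Vr (F.hc 2) F.hd
    (F.holo.mono (ball_subset_ball hr'.le))
  have hae : AEMeasurable (fun q : (Fin 3 → ℂ) × ℕ =>
      ENNReal.ofReal (‖Fs q‖ ^ 2 * Real.exp (-lw (1 - 1 / k) (F.evr h) 0 q))) F.S.μ := by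
    refine AEMeasurable.ennreal_ofReal ?_
    exact Complex.measurable_re.comp_aemeasurable (aestronglyMeasurable_of_CD
      (cd_sq_exp hFs ((lw_cd hH _ 0).mono (by norm_num)))).aemeasurable
  obtain ⟨g, hg1, hg2⟩ := H98.otc (F.hc 2) hd (F.holo.mono (ball_subset_ball hr'.le)) hB0
    (fun τ hτ α => (norm_le_pi_norm _ α).trans (hB τ (ball_subset_ball hr'.le hτ))) hne
    (locRt F hr'.le hFs) hk hke (by
      refine ne_top_of_le_ne_top (b := ENNReal.ofReal C' * ∫⁻ q, ENNReal.ofReal (‖Fs q‖ ^ 2 *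
        Real.exp (-lw (1 - 1 / k) (F.evr h) 0 q)) ∂F.S.μ) (ENNReal.mul_ne_top ENNReal.ofReal_ne_top
          hint) ?_
      rw [lintegral_μ' hae, ← lintegral_const_mul' _ _ ENNReal.ofReal_ne_top]
      refine le_trans ?_ (lintegral_mono_set (Vr_subset F hr'.le))
      refine setLIntegral_mono' hopen.measurableSet fun y hy => ?_
      rw [sum_lab F (Vr_subset F hr'.le hy), Finset.sum_mul, Finset.mul_sum]
      refine Finset.sum_le_sum fun i hi => ?_
      have h1 := hw (y, i) ⟨Vr_subset F hr'.le hy, hi⟩ hy.1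
      calc ‖Fs (y, i)‖ₑ ^ 2 * H98.wt (e * (1 - 1 / k)) (H98.xp y)
          ≤ ‖Fs (y, i)‖ₑ ^ 2 *
            ENNReal.ofReal (C' * Real.exp (-lw (1 - 1 / k) (F.evr h) 0 (y, i))) := by gcongr
        _ = _ := by
            rw [← ofReal_norm_eq_enorm, ← ENNReal.ofReal_pow (norm_nonneg _),
              ← ENNReal.ofReal_mul (by positivity), ← ENNReal.ofReal_mul hC'.le]
            congr 1
            ring)
  refine ⟨g, hg1, fun q hq hqr => ?_⟩
  have hqV : q.1 ∈ H98.Vr F.c F.b r' := by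
    have := (F.mem_M.1 hq).1
    rw [V_eq] at this
    exact ⟨hqr, this.2⟩
  have h1 := hg2 q.1 hqV (F.rt q) (F.rt_root hq)
  have h2 : lab F q.1 (F.rt q) = q.2 := lab_rt F (y := q.1) (i := q.2) hq
  rw [h2] at h1
  exact h1

/-- gluing -/
theorem otc_full (hd : 3 < d) (F : Fam d r) {h : ℂ → Q d e}
    (hh : DifferentiableOn ℂ h (ball 0 r)) {k : ℝ} (hk : 1 ≤ k) (hke : k * ((d : ℝ) - 4) ≤ e)
    {Fs : (Fin 3 → ℂ) × ℕ → ℂ} (hFs : F.S.Holo Fs)
    (hint : ∫⁻ q, ENNReal.ofReal (‖Fs q‖ ^ 2 * Real.exp (-lw (1 - 1 / k) (F.evr h) 0 q)) ∂F.S.μ ≠ ⊤)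
    (hH : F.S.Holo (F.evr h)) :
    ∃ g : ℂ → Q d e, DifferentiableOn ℂ g (ball 0 r) ∧ ∀ q ∈ F.S.M, F.evr g q = Fs q * F.dG q := by
  have hr := F.hr
  set ρ : ℕ → ℝ := fun n => r * (1 - 1 / ((n : ℝ) + 2)) with hρ
  have hρ0 : ∀ n, 0 < ρ n := by
    intro n
    have h1 : 1 / ((n : ℝ) + 2) < 1 := by
      rw [div_lt_one (by positivity)]
      have : (0 : ℝ) ≤ n := Nat.cast_nonneg n
      linarith
    simp only [hρ]
    exact mul_pos hr (by linarith)
  have hρr : ∀ n, ρ n < r := by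
    intro n
    have h1 : 0 < 1 / ((n : ℝ) + 2) := by positivity
    simp only [hρ]
    nlinarith
  have hρlim : Tendsto ρ atTop (𝓝 r) := by
    have h1 : Tendsto (fun n : ℕ => 1 / ((n : ℝ) + 2)) atTop (𝓝 0) :=
      tendsto_const_nhds.div_atTop (tendsto_atTop_add_const_right _ _ tendsto_natCast_atTop_atTop)
    have h2 := (h1.const_sub 1).const_mul r
    rw [sub_zero, mul_one] at h2
    exact h2
  have hρmono : Monotone ρ := by
    intro m n hmn
    simp only [hρ]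
    refine mul_le_mul_of_nonneg_left ?_ hr.le
    have h1 : (m : ℝ) ≤ n := by exact_mod_cast hmn
    have h2 : 1 / ((n : ℝ) + 2) ≤ 1 / ((m : ℝ) + 2) :=
      one_div_le_one_div_of_le (by positivity) (by linarith)
    linarith
  choose g hg1 hg2 using fun n => otc_small hd F hh (hρ0 n) (hρr n) hk hke hFs hint hH
  -- consistency
  have hcons : ∀ m n, m ≤ n → ∀ τ ∈ ball (0 : ℂ) (ρ m), g m τ = g n τ := by
    intro m n hmn
    have hae : ∀ᵐ τ : ℂ, τ ∈ ball (0 : ℂ) (ρ m) → g m τ = g n τ := by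
      filter_upwards [ae_ae_mem F] with τ hτ hτm
      have hτr : τ ∈ ball (0 : ℂ) r := ball_subset_ball (hρr m).le hτm
      refine eq_of_slice F (hτ hτr) fun p hp w hw => ?_
      obtain ⟨i, hi, hiw⟩ := F.exists_rt hp hw
      have hM : (yy p τ, i) ∈ F.S.M := F.mem_M.2 ⟨hp, hi⟩
      have h1 := hg2 m (yy p τ, i) hM (mem_ball_zero_iff.1 hτm)
      have h2 := hg2 n (yy p τ, i) hM (mem_ball_zero_iff.1 (ball_subset_ball (hρmono hmn) hτm))
      have h3 := h1.trans h2.symm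
      unfold Fam.evr at h3
      rw [hiw] at h3
      exact h3
    have h2 := Measure.eqOn_open_of_ae_eq (μ := volume) (U := ball (0 : ℂ) (ρ m))
      ((ae_restrict_iff' measurableSet_ball).2 hae) isOpen_ball
      (hg1 m).continuousOn ((hg1 n).continuousOn.mono (ball_subset_ball (hρmono hmn)))
    exact fun τ hτ => h2 hτ
  have hex : ∀ τ ∈ ball (0 : ℂ) r, ∃ n, τ ∈ ball (0 : ℂ) (ρ n) := by
    intro τ hτ
    have h1 := mem_ball_zero_iff.1 hτ
    obtain ⟨n, hn⟩ := (hρlim.eventually (lt_mem_nhds h1)).exists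
    exact ⟨n, mem_ball_zero_iff.2 hn⟩
  classical
  let G : ℂ → Q d e := fun τ => if h : ∃ n, τ ∈ ball (0 : ℂ) (ρ n) then g (Nat.find h) τ else 0
  have hG : ∀ n, ∀ τ ∈ ball (0 : ℂ) (ρ n), G τ = g n τ := by
    intro n τ hτ
    have h : ∃ n, τ ∈ ball (0 : ℂ) (ρ n) := ⟨n, hτ⟩
    simp only [G, dif_pos h]
    exact hcons _ _ (Nat.find_min' h hτ) τ (Nat.find_spec h)
  refine ⟨G, ?_, ?_⟩
  · intro τ hτ
    obtain ⟨n, hn⟩ := hex τ hτ
    have h1 : DifferentiableAt ℂ (g n) τ := (hg1 n).differentiableAt (isOpen_ball.mem_nhds hn)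
    refine (h1.congr_of_eventuallyEq ?_).differentiableWithinAt
    filter_upwards [isOpen_ball.mem_nhds hn] with y hy
    exact hG n y hy
  · intro q hq
    obtain ⟨n, hn⟩ := hex (q.1 2) (F.mem_M.1 hq).1.1
    rw [← hg2 n q hq (mem_ball_zero_iff.1 hn)]
    unfold Fam.evr
    rw [hG n _ hn]

end Vale.Agent.P298.H283
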