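import Vale.Agent.P298.H283.Schw

/-!
# P298, S1-ABS (b) (helper283): maximum principle and sub-mean value inequalities
for continuous functions with lower supports of Laplacian `≥ -k` off a finite set.
-/

set_option linter.unusedVariables false
set_option linter.unusedSectionVars false

open Complex Metric Set Filter Topology MeasureTheory
open Vale.Agent.P298.H265 (HasLap HasLap.add HasLap.const_mul HasLap.nonpos_of_isLocalMax
  hasLap_re_analytic hasLap_log_norm hasLap_normSq hasLap_log_sub_normSq)

noncomputable section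

namespace Vale.Agent.P298.H283

/-- a lower support at `z₀` with `∂∂̄ ≥ -k` -/
def LowSup (w : ℂ → ℝ) (k : ℝ) (z₀ : ℂ) : Prop :=
  ∃ (u : ℂ → ℝ) (L : ℝ), HasLap u z₀ L ∧ -k ≤ L ∧ u z₀ = w z₀ ∧ ∀ᶠ z in 𝓝 z₀, u z ≤ w z

theorem LowSup.mono {w : ℂ → ℝ} {k k' : ℝ} {z₀ : ℂ} (h : LowSup w k z₀) (hk : k ≤ k') :
    LowSup w k' z₀ := by
  obtain ⟨u, L, h1, h2, h3⟩ := h
  exact ⟨u, L, h1, by linarith, h3⟩

/-- maximum principle with finitely many exceptional points -/
theorem max_principle {w : ℂ → ℝ} {F : ℂ → ℂ} {c : ℂ} {r k : ℝ} {T : Finset ℂ}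
    (hr : 0 < r) (hw : ContinuousOn w (closedBall c r)) (hF : Differentiable ℂ F)
    (hs : ∀ z ∈ ball c r \ (T : Set ℂ), LowSup w k z)
    (hb : ∀ z ∈ sphere c r, w z ≤ (F z).re) :
    ∀ z ∈ closedBall c r, w z ≤ (F z).re + k * (r ^ 2 - ‖z - c‖ ^ 2) := by
  classical
  obtain ⟨Q, hQ1, hQ⟩ := exists_pol_bound T c hr.le
  have hFc : Continuous fun z => (F z).re := Complex.continuous_re.comp hF.continuous
  have main : ∀ z ∈ ball c r \ (T : Set ℂ), w z ≤ (F z).re + k * (r ^ 2 - ‖z - c‖ ^ 2) := by
    intro z₀ hz₀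
    have hz₀T : z₀ ∉ T := fun h => hz₀.2 (Finset.mem_coe.2 h)
    have hp : 0 < ‖pol T z₀‖ := norm_pos_iff.2 fun h => hz₀T (pol_eq_zero.1 h)
    have key : ∀ ε : ℝ, 0 < ε → w z₀ - (F z₀).re - k * (r ^ 2 - ‖z₀ - c‖ ^ 2) ≤
        ε * ((r ^ 2 - ‖z₀ - c‖ ^ 2) + Real.log Q - Real.log ‖pol T z₀‖) := by
      intro ε hε
      set g : ℂ → ℝ := fun z => w z - (F z).re + (k + ε) * ‖z - c‖ ^ 2 with hg
      set G : ℂ → ℝ := fun z => Real.exp (g z) * ‖pol T z‖ ^ ε with hG
      have hgc : ContinuousOn g (closedBall c r) := by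
        refine (hw.sub hFc.continuousOn).add ?_
        fun_prop
      have hGc : ContinuousOn G (closedBall c r) := by
        refine (Real.continuous_exp.comp_continuousOn hgc).mul ?_
        exact ((continuous_pol T).norm.rpow_const fun _ => Or.inr hε.le).continuousOn
      obtain ⟨zm, hzm, hmax⟩ := (isCompact_closedBall c r).exists_isMaxOn
        ⟨c, mem_closedBall_self hr.le⟩ hGc
      have h1 : G z₀ ≤ G zm := hmax (ball_subset_closedBall hz₀.1)
      have hG0 : 0 < G z₀ := mul_pos (Real.exp_pos _) (Real.rpow_pos_of_pos hp _)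
      have hzmT : zm ∉ T := by
        intro h
        have : G zm = 0 := by
          simp only [hG, pol_eq_zero.2 h, norm_zero, Real.zero_rpow hε.ne', mul_zero]
        linarith
      have hlogG : ∀ z, z ∉ T → 0 < G z ∧ Real.log (G z) = g z + ε * Real.log ‖pol T z‖ := by
        intro z hz
        have hpz : 0 < ‖pol T z‖ := norm_pos_iff.2 fun h => hz (pol_eq_zero.1 h)
        refine ⟨mul_pos (Real.exp_pos _) (Real.rpow_pos_of_pos hpz _), ?_⟩
        simp only [hG]
        rw [Real.log_mul (Real.exp_pos _).ne' (Real.rpow_pos_of_pos hpz _).ne', Real.log_exp,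
          Real.log_rpow hpz]
      have hzmn : ‖zm - c‖ ≤ r := by rwa [mem_closedBall, dist_eq_norm] at hzm
      -- `zm` is on the sphere
      have hzs : zm ∈ sphere c r := by
        by_contra hns
        have hzb : zm ∈ ball c r := by
          rw [mem_ball]
          rw [mem_sphere] at hns
          rw [mem_closedBall] at hzm
          exact lt_of_le_of_ne hzm hns
        obtain ⟨u, L, hu, hL, huz, hun⟩ := hs zm ⟨hzb, fun h => hzmT (Finset.mem_coe.1 h)⟩
        have hpol0 : pol T zm ≠ 0 := fun h => hzmT (pol_eq_zero.1 h)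
        have hlap : HasLap (fun z => ((u z + (-1) * (F z).re) + (k + ε) * ‖z - c‖ ^ 2) +
            ε * Real.log ‖pol T z‖) zm (((L + (-1) * 0) + (k + ε) * 1) + ε * 0) :=
          ((hu.add ((hasLap_re_analytic (hF.analyticAt zm)).const_mul (-1))).add
            ((hasLap_normSq c zm).const_mul (k + ε))).add
            ((hasLap_log_norm (analyticAt_pol T zm) hpol0).const_mul ε)
        have hnear : ∀ᶠ z in 𝓝 zm, z ∈ ball c r ∧ z ∉ T := by
          refine (isOpen_ball.eventually_mem hzb).and ?_
          filter_upwards [T.finite_toSet.isClosed.isOpen_compl.eventually_mem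
            (fun h => hzmT (Finset.mem_coe.1 h))] with z hz
          exact fun h => hz (Finset.mem_coe.2 h)
        have h2 := hlap.nonpos_of_isLocalMax (by
          filter_upwards [hun, hnear] with z hz1 hz2
          have h3 : G z ≤ G zm := hmax (ball_subset_closedBall hz2.1)
          have h4 := Real.log_le_log (hlogG z hz2.2).1 h3
          rw [(hlogG z hz2.2).2, (hlogG zm hzmT).2] at h4
          simp only [hg] at h4
          rw [huz]
          linarith)
        linarith
      have h2 := Real.log_le_log hG0 h1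
      rw [(hlogG z₀ hz₀T).2, (hlogG zm hzmT).2] at h2
      have h3 := hb zm hzs
      have h4 : Real.log ‖pol T zm‖ ≤ Real.log Q :=
        Real.log_le_log (norm_pos_iff.2 fun h => hzmT (pol_eq_zero.1 h)) (hQ zm hzmn)
      have h5 : ‖zm - c‖ = r := by rwa [mem_sphere, dist_eq_norm] at hzs
      simp only [hg, h5] at h2
      have h6 := mul_le_mul_of_nonneg_left h4 hε.le
      linarith
    set C : ℝ := (r ^ 2 - ‖z₀ - c‖ ^ 2) + Real.log Q - Real.log ‖pol T z₀‖ with hC
    have h1 : Tendsto (fun ε : ℝ => ε * C) (𝓝[>] 0) (𝓝 (0 * C)) :=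
      ((continuous_id.mul continuous_const).tendsto 0).mono_left nhdsWithin_le_nhds
    rw [zero_mul] at h1
    have h2 := ge_of_tendsto h1 (eventually_mem_nhdsWithin.mono fun ε hε => key ε hε)
    linarith
  intro z hz
  by_cases hzs : z ∈ sphere c r
  · have h1 : ‖z - c‖ = r := by rwa [mem_sphere, dist_eq_norm] at hzs
    rw [h1, sub_self, mul_zero, add_zero]
    exact hb z hzs
  · have hzb : z ∈ ball c r := by
      rw [mem_ball]
      rw [mem_sphere] at hzs
      rw [mem_closedBall] at hz
      exact lt_of_le_of_ne hz hzs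
    have hd : Dense (T : Set ℂ)ᶜ := (T.finite_toSet.countable).dense_compl ℝ
    have hcl : z ∈ closure (ball c r ∩ (T : Set ℂ)ᶜ) := hd.open_subset_closure_inter isOpen_ball hzb
    have hsub : ball c r ∩ (T : Set ℂ)ᶜ ⊆ closedBall c r := fun x hx => ball_subset_closedBall hx.1
    refine ContinuousWithinAt.closure_le hcl ((hw z hz).mono hsub) ?_ fun x hx => main x hx
    have : Continuous fun z : ℂ => (F z).re + k * (r ^ 2 - ‖z - c‖ ^ 2) := by
      refine hFc.add ?_
      fun_prop
    exact this.continuousWithinAt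

/-- approximation of a continuous real function on a circle by real parts of polynomials -/
theorem approx_aux (h : C(AddCircle (2 * Real.pi), ℂ))
    (hh : h ∈ Submodule.span ℂ (range (fourier (T := 2 * Real.pi)))) :
    ∀ a : ℂ, ∃ F : ℂ → ℂ, Differentiable ℂ F ∧
      ∀ x : AddCircle (2 * Real.pi), (a * h x).re = (F (AddCircle.toCircle x : ℂ)).re := by
  induction hh using Submodule.span_induction with
  | mem x hx =>
    obtain ⟨n, rfl⟩ := hx
    intro a
    rcases le_or_gt 0 n with hn | hn
    · obtain ⟨m, rfl⟩ := Int.eq_ofNat_of_zero_le hn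
      refine ⟨fun z => a * z ^ m, by fun_prop, fun x => ?_⟩
      rw [fourier_apply, AddCircle.toCircle_zsmul]
      simp
    · obtain ⟨m, hm⟩ := Int.eq_ofNat_of_zero_le (neg_nonneg.2 hn.le)
      have hn' : n = -(m : ℤ) := by omega
      subst hn'
      refine ⟨fun z => (starRingEnd ℂ) a * z ^ m, by fun_prop, fun x => ?_⟩
      rw [fourier_apply, AddCircle.toCircle_zsmul]
      have h1 : (((AddCircle.toCircle x) ^ (-(m : ℤ)) : Circle) : ℂ) =
          (starRingEnd ℂ) ((AddCircle.toCircle x : ℂ) ^ m) := by
        rw [zpow_neg, zpow_natCast, Circle.coe_inv, Circle.coe_pow, map_pow,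
          ← Circle.coe_inv_eq_conj, Circle.coe_inv, inv_pow]
      rw [h1]
      have h2 : a * (starRingEnd ℂ) ((AddCircle.toCircle x : ℂ) ^ m) =
          (starRingEnd ℂ) ((starRingEnd ℂ) a * (AddCircle.toCircle x : ℂ) ^ m) := by
        rw [map_mul, Complex.conj_conj]
      rw [h2, Complex.conj_re]
  | zero =>
    intro a
    exact ⟨fun _ => 0, by fun_prop, fun x => by simp⟩
  | add x y _ _ hx hy =>
    intro a
    obtain ⟨F, hF, hF'⟩ := hx a
    obtain ⟨G, hG, hG'⟩ := hy a
    refine ⟨fun z => F z + G z, hF.add hG, fun t => ?_⟩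
    rw [ContinuousMap.add_apply, mul_add, Complex.add_re, Complex.add_re, hF', hG']
  | smul b x _ hx =>
    intro a
    obtain ⟨F, hF, hF'⟩ := hx (a * b)
    refine ⟨F, hF, fun t => ?_⟩
    rw [ContinuousMap.smul_apply, smul_eq_mul, ← mul_assoc, hF']

theorem approx {f : ℂ → ℝ} {c : ℂ} {s : ℝ} (hs : 0 < s) (hf : ContinuousOn f (sphere c s))
    {η : ℝ} (hη : 0 < η) :
    ∃ F : ℂ → ℂ, Differentiable ℂ F ∧ ∀ z ∈ sphere c s, |f z - (F z).re| ≤ η := by
  have : Fact (0 < 2 * Real.pi) := ⟨Real.two_pi_pos⟩
  have hmem : ∀ x : AddCircle (2 * Real.pi), c + s * (AddCircle.toCircle x : ℂ) ∈ sphere c s := by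
    intro x
    rw [mem_sphere, dist_eq_norm, add_sub_cancel_left, norm_mul, Circle.norm_coe, mul_one,
      Complex.norm_real, Real.norm_eq_abs, abs_of_pos hs]
  have hc1 : Continuous fun x : AddCircle (2 * Real.pi) => f (c + s * (AddCircle.toCircle x : ℂ)) := by
    refine hf.comp_continuous ?_ hmem
    refine continuous_const.add (continuous_const.mul ?_)
    exact continuous_subtype_val.comp AddCircle.continuous_toCircle
  set g : C(AddCircle (2 * Real.pi), ℂ) :=
    ⟨fun x => (f (c + s * (AddCircle.toCircle x : ℂ)) : ℂ),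
      Complex.continuous_ofReal.comp hc1⟩ with hg
  have h1 : g ∈ (Submodule.span ℂ (range (fourier (T := 2 * Real.pi)))).topologicalClosure := by
    rw [span_fourier_closure_eq_top]
    exact Submodule.mem_top
  have h2 : g ∈ closure ((Submodule.span ℂ (range (fourier (T := 2 * Real.pi))) :
      Set C(AddCircle (2 * Real.pi), ℂ))) := by
    rwa [← Submodule.topologicalClosure_coe]
  obtain ⟨h, hh, hdist⟩ := Metric.mem_closure_iff.1 h2 η hη
  obtain ⟨F, hF, hF'⟩ := approx_aux h hh 1
  refine ⟨fun z => F ((z - c) / s), ?_, fun z hz => ?_⟩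
  · exact hF.comp (by fun_prop)
  · have hn : ‖(z - c) / (s : ℂ)‖ = 1 := by
      rw [norm_div, Complex.norm_real, Real.norm_eq_abs, abs_of_pos hs]
      rw [mem_sphere, dist_eq_norm] at hz
      rw [hz, div_self hs.ne']
    obtain ⟨x, hx⟩ : ∃ x : AddCircle (2 * Real.pi), (AddCircle.toCircle x : ℂ) = (z - c) / s := by
      refine ⟨((((z - c) / (s : ℂ)).arg : ℝ) : AddCircle (2 * Real.pi)), ?_⟩
      rw [AddCircle.toCircle_apply_mk, Circle.coe_exp, div_self Real.two_pi_pos.ne', one_mul]
      have := Complex.norm_mul_exp_arg_mul_I ((z - c) / (s : ℂ))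
      rwa [hn, Complex.ofReal_one, one_mul] at this
    have h3 := hF' x
    rw [one_mul, hx] at h3
    have h4 : ‖g x - h x‖ ≤ η := by
      rw [← dist_eq_norm]
      exact (ContinuousMap.dist_apply_le_dist x).trans hdist.le
    have h5 : (g x - h x).re = f z - (F ((z - c) / s)).re := by
      rw [Complex.sub_re, h3]
      have : g x = (f (c + s * (AddCircle.toCircle x : ℂ)) : ℂ) := rfl
      rw [this, Complex.ofReal_re, hx, mul_div_cancel₀ _ (by exact_mod_cast hs.ne'),
        add_sub_cancel]
    rw [← h5]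
    exact (Complex.abs_re_le_norm _).trans h4

/-- sub-mean value inequality on circles -/
theorem submean {w : ℂ → ℝ} {c : ℂ} {s k : ℝ} {T : Finset ℂ}
    (hs : 0 < s) (hw : ContinuousOn w (closedBall c s))
    (hsup : ∀ z ∈ ball c s \ (T : Set ℂ), LowSup w k z) :
    w c ≤ Real.circleAverage w c s + k * s ^ 2 := by
  have hws : ContinuousOn w (sphere c s) := hw.mono sphere_subset_closedBall
  have key : ∀ η : ℝ, 0 < η → w c ≤ Real.circleAverage w c s + k * s ^ 2 + 2 * η := by
    intro η hη
    obtain ⟨F, hF, hF'⟩ := approx hs hws hη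
    have h1 := max_principle (F := fun z => F z + η) hs hw (by fun_prop) hsup (by
      intro z hz
      have := (abs_le.1 (hF' z hz)).2
      simp only [Complex.add_re, Complex.ofReal_re]
      linarith) c (mem_closedBall_self hs.le)
    simp only [Complex.add_re, Complex.ofReal_re, sub_self, norm_zero] at h1
    have hFs : ContinuousOn F (sphere c |s|) := hF.continuous.continuousOn
    have hFi : CircleIntegrable F c s := hFs.circleIntegrable'
    have h2 : Real.circleAverage (fun z => (F z).re) c s = (F c).re := by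
      have h3 : Real.circleAverage F c s = F c :=
        DiffContOnCl.circleAverage hF.diffContOnCl
      have h4 := Complex.reCLM.circleAverage_comp_comm hFi
      rw [h3] at h4
      exact h4
    have hi1 : CircleIntegrable (fun z => (F z).re) c s :=
      ((Complex.continuous_re.comp hF.continuous).continuousOn).circleIntegrable'
    have hi2 : CircleIntegrable w c s := by
      apply ContinuousOn.circleIntegrable'
      rwa [abs_of_pos hs]
    have h5 : Real.circleAverage (fun z => (F z).re) c s ≤
        Real.circleAverage (fun z => w z + η) c s := by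
      refine Real.circleAverage_mono hi1 (hi2.add (circleIntegrable_const _ _ _)) fun z hz => ?_
      rw [abs_of_pos hs] at hz
      have := (abs_le.1 (hF' z hz)).1
      linarith
    have h6 : Real.circleAverage (fun z => w z + η) c s = Real.circleAverage w c s + η := by
      have := Real.circleAverage_fun_add hi2 (circleIntegrable_const η c s)
      rw [this, Real.circleAverage_const]
    rw [h6, h2] at h5
    nlinarith
  refine le_of_forall_pos_le_add fun ε hε => ?_
  have := key (ε / 2) (by linarith)
  linarith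

end Vale.Agent.P298.H283
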