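import Vale.Agent.P298.H283.FamT

/-!
# P298, OT-D2 (helper283), part 3: the weighted `L²` extension theorem for the surfaces `G_τ = 0`
with the weight `(1 - 1/k) log |h_τ|²`
-/

set_option linter.all false

open MeasureTheory Filter Topology Metric Set
open scoped ENNReal NNReal ComplexConjugate

namespace Vale.Agent.P298.H283

open Vale.Agent.P300.L2 Vale.Agent.P300.L2.Sheets Vale.Agent.P298 Vale.Agent.P298.H379
  Vale.Agent.P298.H755 Vale.Agent.P298.H293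

/-- The weighted extension theorem for the surfaces `G_τ = 0` over a disc. -/
def L2X (C : ℝ≥0) : Prop :=
  ∀ (d e : ℕ), 5 ≤ d → ∀ (c : Fin 3 → ℂ), (∀ i, c i ≠ 0) → ∀ (b : ℂ → Q d (d - 1)) (r : ℝ),
    0 < r → DifferentiableOn ℂ b (ball 0 r) →
    (∃ B : ℝ, ∀ τ ∈ ball (0 : ℂ) r, ∀ α, ‖b τ α‖ ≤ B) →
    (∃ p : ℂ × ℂ, ∀ z, H98.Gf c b 0 (pt p z) = 0 → pd 2 (H98.Gf c b 0) (pt p z) ≠ 0) →
    ∀ k : ℝ, 1 ≤ k → k * ((d : ℝ) - 4) ≤ e → ∀ v : Q d e, Nk (H98.Gf c b 0) 0 k (ev v) < ∞ →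
    ∀ h : ℂ → Q d e, DifferentiableOn ℂ h (ball 0 r) → h 0 = v →
    ∃ g : ℂ → Q d e, DifferentiableOn ℂ g (ball 0 r) ∧ g 0 = v ∧
      ∫⁻ τ in ball (0 : ℂ) r, nu (H98.Gf c b τ) 0
        (fun x => ‖ev (g τ) x‖ₑ ^ 2 * (‖ev (h τ) x‖ₑ ^ (2 * (1 - 1 / k)))⁻¹) ≤
        C * ENNReal.ofReal (r ^ 2) * Nk (H98.Gf c b 0) 0 k (ev v)

theorem rpow_aux {a ε k : ℝ} (ha : 0 ≤ a) (hε : 0 < ε) (hk : 1 ≤ k) :
    a ^ 2 * (ε + a ^ 2) ^ (-(1 - 1 / k)) ≤ a ^ (2 / k) := by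
  rcases ha.eq_or_lt with rfl | ha
  · have h1 : (0 : ℝ) ≤ 0 ^ (2 / k) := Real.rpow_nonneg le_rfl _
    simpa using h1
  · have h1 : 0 ≤ 1 - 1 / k := by
      rw [sub_nonneg, div_le_one (by linarith)]
      exact hk
    have h2 : (ε + a ^ 2) ^ (-(1 - 1 / k)) ≤ (a ^ 2) ^ (-(1 - 1 / k)) :=
      Real.rpow_le_rpow_of_nonpos (by positivity) (by linarith) (by linarith)
    calc a ^ 2 * (ε + a ^ 2) ^ (-(1 - 1 / k)) ≤ a ^ 2 * (a ^ 2) ^ (-(1 - 1 / k)) := by gcongr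
      _ = a ^ (2 / k) := by
          rw [← Real.rpow_natCast, ← Real.rpow_mul ha.le, ← Real.rpow_add ha]
          congr 1
          push_cast
          field_simp
          ring

theorem tendsto_aux (a : ℂ) (κ : ℝ) :
    Tendsto (fun m : ℕ => ENNReal.ofReal ((1 / ((m : ℝ) + 1) + ‖a‖ ^ 2) ^ (-κ))) atTop
      (𝓝 ((‖a‖ₑ ^ (2 * κ))⁻¹)) := by
  have h1 : ∀ m : ℕ, ENNReal.ofReal ((1 / ((m : ℝ) + 1) + ‖a‖ ^ 2) ^ (-κ)) =
      (ENNReal.ofReal (1 / ((m : ℝ) + 1) + ‖a‖ ^ 2)) ^ (-κ) := by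
    intro m
    rw [ENNReal.ofReal_rpow_of_pos (by positivity)]
  simp only [h1]
  have h2 : (‖a‖ₑ ^ (2 * κ))⁻¹ = (ENNReal.ofReal (0 + ‖a‖ ^ 2)) ^ (-κ) := by
    rw [zero_add, ENNReal.ofReal_pow (norm_nonneg _), ofReal_norm_eq_enorm, ENNReal.rpow_neg,
      ENNReal.rpow_mul]
    congr 2
    rw [← ENNReal.rpow_natCast]
    norm_num
  rw [h2]
  refine (ENNReal.continuous_rpow_const.tendsto _).comp ?_
  refine (ENNReal.continuous_ofReal.tendsto _).comp ?_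
  exact tendsto_one_div_add_atTop_nhds_zero_nat.add_const _

variable {d e : ℕ}

theorem l2x_half (hd : 5 ≤ d) (F : Fam d (1 / 2)) {k : ℝ} (hk : 1 ≤ k)
    (hke : k * ((d : ℝ) - 4) ≤ e) {v : Q d e} (hN : Nk (F.G 0) 0 k (ev v) < ∞)
    {h : ℂ → Q d e} (hh : DifferentiableOn ℂ h (ball 0 (1 / 2))) (h0 : h 0 = v) :
    ∃ g : ℂ → Q d e, DifferentiableOn ℂ g (ball 0 (1 / 2)) ∧ g 0 = v ∧
      ∫⁻ τ in ball (0 : ℂ) (1 / 2), nu (F.G τ) 0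
        (fun x => ‖ev (g τ) x‖ₑ ^ 2 * (‖ev (h τ) x‖ₑ ^ (2 * (1 - 1 / k)))⁻¹) ≤
        ENNReal.ofReal (otC * Real.pi) * Nk (F.G 0) 0 k (ev v) := by
  obtain ⟨C, k0, hexh⟩ := F.exh
  have hκ : 0 ≤ 1 - 1 / k := by
    rw [sub_nonneg, div_le_one (by linarith)]
    exact hk
  have hH : F.S.Holo (F.evr h) := F.holo_evr hh
  set vS : (Fin 3 → ℂ) × ℕ → ℂ := fun q => F.evr (fun _ => v) q * (F.dG q)⁻¹ with hvS
  have hvh : F.S.Holo vS := F.holo_quot (differentiableOn_const v)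
  obtain ⟨cv, kv, hcv, hv⟩ := F.PG_quot (h := fun _ => v) (B := ‖v‖)
    (fun τ _ α => norm_le_pi_norm v α)
  have hnull : ∀ᵐ x : Fin 2 → ℂ, ((2 : Fin 3).insertNth 0 x : Fin 3 → ℂ) ∈ F.S.V := by
    have h1 := (volume_preserving_finTwoArrow ℂ).quasiMeasurePreserving.ae (ae_slice F)
    filter_upwards [h1] with x hx
    rw [insertNth_two]
    exact hx
  obtain ⟨Fs, hFs1, hFs2, hFs3⟩ := ot_sheets (n := 2) (S := F.S) hexh (2 : Fin 3)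
    (fun z hz => (mem_ball_zero_iff.1 hz.1).le) (φ := lw (1 - 1 / k) (F.evr h))
    (fun m => lw_cd hH _ m) (fun m q _ => lw_anti hκ m q) (fun m => ⟨_, fun q _ => lw_ge hκ m q⟩)
    (fun m q hq β => lw_levi hH hκ m hq β) hvh ⟨cv, kv, hv⟩ hnull hN.ne (by
      intro m
      refine slI_le F (fun q => by positivity) F.p fun q hq hq2 => ?_
      have hD := F.dG_ne_zero hq
      have h1 : F.evr h q = ev v (pt (q.1 0, q.1 1) (F.rt q)) := by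
        unfold Fam.evr
        rw [hq2, h0]
      have h2 : F.dG q = pd 2 (F.G 0) (pt (q.1 0, q.1 1) (F.rt q)) := by
        unfold Fam.dG
        rw [hq2]
      have h3 : vS q = ev v (pt (q.1 0, q.1 1) (F.rt q)) * (F.dG q)⁻¹ := rfl
      rw [exp_lw, h3, h1, ← h2]
      set a := ev v (pt (q.1 0, q.1 1) (F.rt q)) with ha
      have h4 := rpow_aux (norm_nonneg a) (Nat.one_div_pos_of_nat (n := m) (α := ℝ)) hk
      have hD' : 0 < ‖F.dG q‖ := norm_pos_iff.2 hD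
      calc ENNReal.ofReal (‖a * (F.dG q)⁻¹‖ ^ 2 * (1 / ((m : ℝ) + 1) + ‖a‖ ^ 2) ^ (-(1 - 1 / k)))
          ≤ ENNReal.ofReal (‖a‖ ^ (2 / k) / ‖F.dG q‖ ^ 2) := by
            refine ENNReal.ofReal_le_ofReal ?_
            rw [norm_mul, norm_inv, mul_pow, inv_pow, le_div_iff₀ (by positivity)]
            calc ‖a‖ ^ 2 * (‖F.dG q‖ ^ 2)⁻¹ * (1 / ((m : ℝ) + 1) + ‖a‖ ^ 2) ^ (-(1 - 1 / k)) *
                  ‖F.dG q‖ ^ 2 = ‖a‖ ^ 2 * (1 / ((m : ℝ) + 1) + ‖a‖ ^ 2) ^ (-(1 - 1 / k)) *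
                    ((‖F.dG q‖ ^ 2)⁻¹ * ‖F.dG q‖ ^ 2) := by ring
              _ = ‖a‖ ^ 2 * (1 / ((m : ℝ) + 1) + ‖a‖ ^ 2) ^ (-(1 - 1 / k)) := by
                  rw [inv_mul_cancel₀ (by positivity), mul_one]
              _ ≤ _ := h4
        _ = ‖a‖ₑ ^ (2 / k) / ‖F.dG q‖ₑ ^ 2 := by
            rw [ENNReal.ofReal_div_of_pos (by positivity), ENNReal.ofReal_pow (norm_nonneg _),
              ofReal_norm_eq_enorm, ← ENNReal.ofReal_rpow_of_nonneg (norm_nonneg _) (by positivity),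
              ofReal_norm_eq_enorm])
  have hfin : ENNReal.ofReal (otC * Real.pi) * Nk (F.G 0) 0 k (ev v) ≠ ⊤ :=
    ENNReal.mul_ne_top ENNReal.ofReal_ne_top hN.ne
  obtain ⟨g, hg1, hg2⟩ := otc_full (by omega) F hh hk hke hFs1
    (ne_top_of_le_ne_top hfin (hFs2 0)) hH
  refine ⟨g, hg1, ?_, ?_⟩
  · refine eq_of_slice F (ae_slice F) fun p hp w hw => ?_
    obtain ⟨i, hi, hiw⟩ := F.exists_rt hp hw
    have hM : (yy p 0, i) ∈ F.S.M := F.mem_M.2 ⟨hp, hi⟩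
    have h1 := hg2 _ hM
    rw [hFs3 _ hM rfl] at h1
    have h2 : vS (yy p 0, i) = ev v (pt p w) * (F.dG (yy p 0, i))⁻¹ := by
      rw [← hiw]
      rfl
    rw [h2, inv_mul_cancel_right₀ (F.dG_ne_zero hM)] at h1
    rw [← h1, ← hiw]
    rfl
  · refine nu_le_of_tendsto F (Y := fun m q => ‖Fs q‖ ^ 2 *
      Real.exp (-lw (1 - 1 / k) (F.evr h) m q)) (fun m q => by positivity)
      (fun m => cd_sq_exp hFs1 ((lw_cd hH _ m).mono (by norm_num))) hFs2 fun q hq => ?_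
    have hD := F.dG_ne_zero hq
    have h1 := hg2 q hq
    have h2 : ‖ev (g (q.1 2)) (pt (q.1 0, q.1 1) (F.rt q))‖ₑ ^ 2 *
        (‖ev (h (q.1 2)) (pt (q.1 0, q.1 1) (F.rt q))‖ₑ ^ (2 * (1 - 1 / k)))⁻¹ /
        ‖pd 2 (F.G (q.1 2)) (pt (q.1 0, q.1 1) (F.rt q))‖ₑ ^ 2 =
        ‖Fs q‖ₑ ^ 2 * (‖F.evr h q‖ₑ ^ (2 * (1 - 1 / k)))⁻¹ := by
      show ‖F.evr g q‖ₑ ^ 2 * (‖F.evr h q‖ₑ ^ (2 * (1 - 1 / k)))⁻¹ / ‖F.dG q‖ₑ ^ 2 = _
      rw [h1, enorm_mul, mul_pow]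
      have h3 : ‖F.dG q‖ₑ ^ 2 ≠ 0 := pow_ne_zero _ (by rwa [Ne, enorm_eq_zero])
      have h4 : ‖F.dG q‖ₑ ^ 2 ≠ ⊤ := ENNReal.pow_ne_top enorm_ne_top
      rw [mul_right_comm, ENNReal.mul_div_cancel_right h3 h4]
    rw [h2]
    have h5 : ∀ m : ℕ, ENNReal.ofReal (‖Fs q‖ ^ 2 * Real.exp (-lw (1 - 1 / k) (F.evr h) m q)) =
        ‖Fs q‖ₑ ^ 2 * ENNReal.ofReal ((1 / ((m : ℝ) + 1) + ‖F.evr h q‖ ^ 2) ^ (-(1 - 1 / k))) := by
      intro m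
      rw [exp_lw, ENNReal.ofReal_mul (by positivity), ENNReal.ofReal_pow (norm_nonneg _),
        ofReal_norm_eq_enorm]
    simp only [h5]
    exact ENNReal.Tendsto.const_mul (tendsto_aux _ _) (Or.inr (ENNReal.pow_ne_top enorm_ne_top))

/-! ### Scaling -/

theorem lintegral_scale {r : ℝ} (hr : 0 < r) (Φ : ℂ → ℝ≥0∞) :
    ∫⁻ τ in ball (0 : ℂ) r, Φ τ = ENNReal.ofReal ((2 * r) ^ 2) *
      ∫⁻ σ in ball (0 : ℂ) (1 / 2), Φ ((2 * r : ℝ) • σ) := by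
  have h2r : (0 : ℝ) < 2 * r := by positivity
  have h1 := Measure.map_addHaar_smul (volume : Measure ℂ) h2r.ne'
  have hemb : MeasurableEmbedding fun σ : ℂ => (2 * r : ℝ) • σ :=
    (Homeomorph.smulOfNeZero (2 * r) h2r.ne').measurableEmbedding
  have h2 : ∫⁻ σ in ball (0 : ℂ) (1 / 2), Φ ((2 * r : ℝ) • σ) =
      ∫⁻ τ in ball (0 : ℂ) r, Φ τ ∂(Measure.map (fun σ : ℂ => (2 * r : ℝ) • σ) volume) := by
    rw [hemb.restrict_map, hemb.lintegral_map]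
    have h3 : (fun σ : ℂ => (2 * r : ℝ) • σ) ⁻¹' (ball (0 : ℂ) r) = ball 0 (1 / 2) := by
      ext σ
      rw [mem_preimage, mem_ball_zero_iff, mem_ball_zero_iff, norm_smul, Real.norm_of_nonneg h2r.le]
      constructor
      · intro h
        nlinarith
      · intro h
        nlinarith
    rw [h3]
  rw [h2, h1, Measure.restrict_smul, lintegral_smul_measure, Complex.finrank_real_complex,
    smul_eq_mul, ← mul_assoc, ← ENNReal.ofReal_mul (by positivity)]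
  have h4 : (2 * r) ^ 2 * |((2 * r) ^ 2)⁻¹| = 1 := by
    rw [abs_of_pos (by positivity)]
    field_simp
  rw [h4, ENNReal.ofReal_one, one_mul]

/-- the constant of `L2X` -/
noncomputable def l2xC : ℝ≥0 := Real.toNNReal (4 * (otC * Real.pi))

/-- **OT-D2: the weighted extension theorem** -/
theorem l2x : L2X l2xC := by
  intro d e hd c hc b r hr hb hB hred k hk hke v hN h hh h0
  have hmap : MapsTo (fun σ : ℂ => (2 * r : ℝ) • σ) (ball 0 (1 / 2)) (ball 0 r) := by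
    intro σ hσ
    rw [mem_ball_zero_iff] at hσ ⊢
    rw [norm_smul, Real.norm_of_nonneg (by positivity)]
    nlinarith
  have hb' : DifferentiableOn ℂ (fun σ : ℂ => b ((2 * r : ℝ) • σ)) (ball 0 (1 / 2)) :=
    hb.comp (by fun_prop) hmap
  have hB' : ∃ B : ℝ, ∀ τ ∈ ball (0 : ℂ) (1 / 2), ∀ α, ‖b ((2 * r : ℝ) • τ) α‖ ≤ B := by
    obtain ⟨B, hB⟩ := hB
    exact ⟨B, fun τ hτ => hB _ (hmap hτ)⟩
  have hG : ∀ σ : ℂ, H98.Gf c (fun σ : ℂ => b ((2 * r : ℝ) • σ)) σ = H98.Gf c b ((2 * r : ℝ) • σ) :=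
    fun σ => rfl
  have hG0 : H98.Gf c (fun σ : ℂ => b ((2 * r : ℝ) • σ)) 0 = H98.Gf c b 0 := by
    rw [hG, smul_zero]
  let F : Fam d (1 / 2) := Fam.mk' c (fun σ : ℂ => b ((2 * r : ℝ) • σ)) (by omega) (by norm_num) hc
    hb' hB' (by rw [hG0]; exact hred)
  have hFG : ∀ σ, F.G σ = H98.Gf c b ((2 * r : ℝ) • σ) := fun σ => rfl
  have hFG0 : F.G 0 = H98.Gf c b 0 := hG0
  obtain ⟨g, hg1, hg2, hg3⟩ := l2x_half hd F hk hke (v := v) (by rw [hFG0]; exact hN)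
    (h := fun σ => h ((2 * r : ℝ) • σ)) (hh.comp (by fun_prop) hmap) (by simpa using h0)
  have h2r : (2 * r : ℝ) ≠ 0 := by positivity
  refine ⟨fun τ => g ((2 * r : ℝ)⁻¹ • τ), ?_, by simpa using hg2, ?_⟩
  · refine hg1.comp (by fun_prop) fun τ hτ => ?_
    rw [mem_ball_zero_iff] at hτ ⊢
    rw [norm_smul, norm_inv, Real.norm_of_nonneg (by positivity), inv_mul_lt_iff₀ (by positivity)]
    linarith
  · rw [lintegral_scale hr]
    have h3 : ∀ σ : ℂ, (2 * r : ℝ)⁻¹ • ((2 * r : ℝ) • σ) = σ := fun σ => inv_smul_smul₀ h2r σ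
    simp only [h3]
    rw [hFG0] at hg3
    calc ENNReal.ofReal ((2 * r) ^ 2) * ∫⁻ σ in ball (0 : ℂ) (1 / 2),
          nu (H98.Gf c b ((2 * r : ℝ) • σ)) 0 (fun x => ‖ev (g σ) x‖ₑ ^ 2 *
            (‖ev (h ((2 * r : ℝ) • σ)) x‖ₑ ^ (2 * (1 - 1 / k)))⁻¹)
        ≤ ENNReal.ofReal ((2 * r) ^ 2) * (ENNReal.ofReal (otC * Real.pi) *
            Nk (H98.Gf c b 0) 0 k (ev v)) := by
          gcongr
          exact hg3
      _ = _ := by
          have hotC := otC_pos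
          have hpi := Real.pi_pos
          have h4 : (l2xC : ℝ≥0∞) = ENNReal.ofReal (4 * (otC * Real.pi)) := rfl
          rw [h4, ← mul_assoc, ← ENNReal.ofReal_mul (by positivity),
            ← ENNReal.ofReal_mul (by positivity)]
          congr 2
          ring

end Vale.Agent.P298.H283
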