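import Vale.Agent.P300.H435.L2.Holo
import Vale.Agent.P299.H720.Montel
import Vale.Agent.P271.H408.Mean

/-!
# P298, OT-D1 (helper283): limits of holomorphic functions on finite covers
-/

set_option linter.all false

open MeasureTheory Filter Topology Metric
open scoped ENNReal NNReal ComplexConjugate

namespace Vale.Agent.P298.H283

open Vale.Agent.P300.L2 Vale.Agent.P300.L2.Sheets

variable {n N : ℕ} {S : Sheets n N}

/-- the integral over a piece of a sheet is bounded by the integral over `M` -/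
theorem lintegral_section_le {Ψ : (Fin n → ℂ) × ℕ → ℝ≥0∞} (hΨ : AEMeasurable Ψ S.μ)
    {W : Set (Fin n → ℂ)} {s : (Fin n → ℂ) → ℕ} (hs : S.IsSection W s) {A : Set (Fin n → ℂ)}
    (hA : MeasurableSet A) (hAW : A ⊆ W) :
    ∫⁻ z in A, Ψ (z, s z) ≤ ∫⁻ q, Ψ q ∂S.μ := by
  rw [lintegral_μ' hΨ]
  have hAV : A ⊆ S.V := hAW.trans hs.subset
  calc ∫⁻ z in A, Ψ (z, s z) ≤ ∫⁻ z in A, ∑ w ∈ S.fib z, Ψ (z, w) := by
        refine setLIntegral_mono' hA fun z hz => ?_
        exact Finset.single_le_sum (f := fun w => Ψ (z, w)) (fun _ _ => zero_le)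
          (hs.mem z (hAW hz))
    _ ≤ _ := lintegral_mono_set hAV

/-- local bound of holomorphic functions by their `L²` norms -/
theorem local_bound {F : (Fin n → ℂ) × ℕ → ℂ} (hF : S.Holo F) {ψ : (Fin n → ℂ) × ℕ → ℝ}
    (hψ : S.CD 0 (fun q => (ψ q : ℂ)))
    {B : ℝ≥0∞} (hI : ∫⁻ q, ENNReal.ofReal (‖F q‖ ^ 2 * Real.exp (-ψ q)) ∂S.μ ≤ B)
    {W : Set (Fin n → ℂ)} {s : (Fin n → ℂ) → ℕ} (hs : S.IsSection W s) {z₀ : Fin n → ℂ} {r : ℝ}
    (hr : 0 < r) (hW : ball z₀ (2 * r) ⊆ W) {c : ℝ} (hc : ∀ z ∈ ball z₀ (2 * r), ψ (z, s z) ≤ c)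
    {z : Fin n → ℂ} (hz : z ∈ ball z₀ r) :
    ‖F (z, s z)‖ₑ ^ 2 ≤ B * ENNReal.ofReal (Real.exp c) / volume (ball z r) := by
  have hsub : ball z r ⊆ ball z₀ (2 * r) := by
    intro y hy
    rw [mem_ball] at *
    have := dist_triangle y z z₀
    linarith
  have h1 := Vale.Agent.P271.H408.enorm_sq_mul_volume_le (f := fun z => F (z, s z)) (z := z) (r := r)
    ((hF W s hs).mono (hsub.trans hW))
  have hvol0 : volume (ball z r) ≠ 0 := (measure_ball_pos volume z hr).ne'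
  have hvolt : volume (ball z r) ≠ ∞ := measure_ball_lt_top.ne
  rw [ENNReal.le_div_iff_mul_le (Or.inl hvol0) (Or.inl hvolt)]
  refine h1.trans ?_
  have hm : AEMeasurable (fun q => ENNReal.ofReal (‖F q‖ ^ 2 * Real.exp (-ψ q))) S.μ := by
    refine AEMeasurable.ennreal_ofReal ?_
    have h2 := (aestronglyMeasurable_of_CD (hF.CD 0)).norm.aemeasurable
    have h3 : AEMeasurable ψ S.μ := by
      have := (aestronglyMeasurable_of_CD hψ).aemeasurable
      exact (Complex.measurable_re.comp_aemeasurable this)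
    exact (h2.pow_const 2).mul (Real.measurable_exp.comp_aemeasurable h3.neg)
  calc ∫⁻ y in ball z r, ‖F (y, s y)‖ₑ ^ 2
      ≤ ∫⁻ y in ball z r, ENNReal.ofReal (‖F (y, s y)‖ ^ 2 * Real.exp (-ψ (y, s y))) *
          ENNReal.ofReal (Real.exp c) := by
        refine setLIntegral_mono' measurableSet_ball fun y hy => ?_
        rw [← ENNReal.ofReal_mul (by positivity), ← ofReal_norm, ← ENNReal.ofReal_pow (norm_nonneg _)]
        refine ENNReal.ofReal_le_ofReal ?_
        have h4 : 1 ≤ Real.exp (-ψ (y, s y)) * Real.exp c := by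
          rw [← Real.exp_add]
          exact Real.one_le_exp (by linarith [hc y (hsub hy)])
        calc ‖F (y, s y)‖ ^ 2 = ‖F (y, s y)‖ ^ 2 * 1 := (mul_one _).symm
          _ ≤ ‖F (y, s y)‖ ^ 2 * (Real.exp (-ψ (y, s y)) * Real.exp c) := by gcongr
          _ = _ := by ring
    _ = (∫⁻ y in ball z r, ENNReal.ofReal (‖F (y, s y)‖ ^ 2 * Real.exp (-ψ (y, s y)))) *
          ENNReal.ofReal (Real.exp c) := lintegral_mul_const' _ _ ENNReal.ofReal_ne_top
    _ ≤ B * ENNReal.ofReal (Real.exp c) := by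
        gcongr
        exact (lintegral_section_le hm hs measurableSet_ball (hsub.trans hW)).trans hI

/-- **Limits**: a sequence of holomorphic functions on the cover with bounded weighted `L²` norms
has a limit. -/
theorem holo_limit {p : (Fin n → ℂ) → ℝ} {C : ℝ} {k0 : ℕ} (hp : Exh S.V p C k0)
    {Ψ : ℕ → (Fin n → ℂ) × ℕ → ℝ} (hΨ : ∀ m, S.CD 0 (fun q => (Ψ m q : ℂ)))
    (hanti : ∀ m, ∀ q ∈ S.M, Ψ (m + 1) q ≤ Ψ m q)
    {F : ℕ → (Fin n → ℂ) × ℕ → ℂ} (hF : ∀ j, S.Holo (F j)) {B : ℝ≥0∞} (hB : B ≠ ∞)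
    {b : ℕ → ℝ≥0∞} (hb : ∀ j, b j ≤ B) {b' : ℝ≥0∞} (hb' : Tendsto b atTop (𝓝 b'))
    (hIb : ∀ j, ∫⁻ q, ENNReal.ofReal (‖F j q‖ ^ 2 * Real.exp (-Ψ j q)) ∂S.μ ≤ b j) :
    ∃ G : (Fin n → ℂ) × ℕ → ℂ, S.Holo G ∧
      (∀ m, ∫⁻ q, ENNReal.ofReal (‖G q‖ ^ 2 * Real.exp (-Ψ m q)) ∂S.μ ≤ b') ∧
      ∃ φ : ℕ → ℕ, StrictMono φ ∧ ∀ q ∈ S.M, Tendsto (fun j => F (φ j) q) atTop (𝓝 (G q)) := by
  classical
  have hI : ∀ j, ∫⁻ q, ENNReal.ofReal (‖F j q‖ ^ 2 * Real.exp (-Ψ j q)) ∂S.μ ≤ B := fun j =>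
    (hIb j).trans (hb j)
  set 𝒰 : Ultrafilter ℕ := hyperfilter ℕ with h𝒰
  have hantiM : ∀ q ∈ S.M, Antitone (fun m => Ψ m q) := fun q hq =>
    antitone_nat_of_succ_le fun m => hanti m q hq
  -- local boundedness along sections
  have hbdd : ∀ W s, S.IsSection W s →
      Vale.Agent.P299.H720.LocBdd (𝒰 : Filter ℕ) (fun j z => F j (z, s z)) W := by
    intro W s hs z₀ hz₀
    obtain ⟨R, hR, hRW⟩ := Metric.isOpen_iff.1 hs.isOpen z₀ hz₀
    set r : ℝ := R / 4 with hr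
    have hr0 : 0 < r := by positivity
    have hsub2 : closedBall z₀ (2 * r) ⊆ W :=
      (closedBall_subset_ball (by rw [hr]; linarith)).trans hRW
    obtain ⟨c, hc⟩ := exists_bound (hΨ 0) (isCompact_closedBall z₀ (2 * r)) (hsub2.trans hs.subset)
    have hsub : ball z₀ (2 * r) ⊆ W := ball_subset_closedBall.trans hsub2
    have hcc : ∀ j, ∀ z ∈ ball z₀ (2 * r), Ψ j (z, s z) ≤ c := by
      intro j z hz
      have hM : (z, s z) ∈ S.M := hs.mem_M (hsub hz)
      refine (hantiM _ hM (Nat.zero_le j)).trans ?_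
      have := hc (z, s z) hM (ball_subset_closedBall hz)
      rw [Complex.norm_real, Real.norm_eq_abs] at this
      exact (le_abs_self _).trans this
    have hvol : ∀ z : Fin n → ℂ, volume (ball z r) = volume (ball (0 : Fin n → ℂ) r) := fun z =>
      Measure.addHaar_ball_center volume z r
    set D : ℝ≥0∞ := B * ENNReal.ofReal (Real.exp c) / volume (ball (0 : Fin n → ℂ) r) with hD
    have hDt : D ≠ ∞ := ENNReal.div_ne_top (ENNReal.mul_ne_top hB ENNReal.ofReal_ne_top)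
      (measure_ball_pos volume _ hr0).ne'
    refine ⟨r, hr0, Real.sqrt D.toReal, Eventually.of_forall fun j => ⟨?_, fun z hz => ?_⟩⟩
    · exact (hF j W s hs).mono ((ball_subset_ball (by linarith)).trans hsub)
    · have h1 := local_bound (hF j) (hΨ j) (hI j) hs hr0 hsub (hcc j) hz
      rw [hvol z, ← hD] at h1
      refine Real.le_sqrt_of_sq_le ?_
      have h2 := ENNReal.toReal_mono hDt h1
      rwa [ENNReal.toReal_pow, toReal_enorm] at h2
  -- the limit along the ultrafilter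
  have hlim : ∀ q : (Fin n → ℂ) × ℕ, ∃ y : ℂ, q ∈ S.M → Tendsto (fun j => F j q) 𝒰 (𝓝 y) := by
    intro q
    by_cases hq : q ∈ S.M
    · obtain ⟨s, W, hs, hqW, hsq⟩ := exists_section hq
      obtain ⟨r, hr, K, hK⟩ := hbdd W s hs q.1 hqW
      have h1 : ∀ᶠ j in (𝒰 : Filter ℕ), F j q ∈ closedBall (0 : ℂ) K := by
        filter_upwards [hK] with j hj
        have := hj.2 q.1 (mem_ball_self hr)
        rw [hsq] at this
        simpa using this
      obtain ⟨y, -, hy⟩ := (isCompact_closedBall (0 : ℂ) K).ultrafilter_le_nhds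
        (𝒰.map (fun j => F j q)) (by
          rw [le_principal_iff]
          exact h1)
      exact ⟨y, fun _ => hy⟩
    · exact ⟨0, fun h => absurd h hq⟩
  choose G hG using hlim
  -- holomorphy and locally uniform convergence along sections
  have hsec : ∀ W s, S.IsSection W s → DifferentiableOn ℂ (fun z => G (z, s z)) W ∧
      TendstoLocallyUniformlyOn (fun j z => F j (z, s z)) (fun z => G (z, s z)) (𝒰 : Filter ℕ) W := by
    intro W s hs
    obtain ⟨g, hg1, hg2, hg3⟩ := Vale.Agent.P299.H720.montel_full 𝒰 hs.isOpen (hbdd W s hs)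
    have heq : ∀ z ∈ W, g z = G (z, s z) := by
      intro z hz
      exact tendsto_nhds_unique (hg3 z hz (fun _ => z) tendsto_const_nhds)
        (hG (z, s z) (hs.mem_M hz))
    exact ⟨hg1.congr fun z hz => (heq z hz).symm, hg2.congr_right fun z hz => heq z hz⟩
  have hGh : S.Holo G := fun W s hs => (hsec W s hs).1
  -- uniform convergence over compact sets
  have hcpt : ∀ A : Set (Fin n → ℂ), IsCompact A → A ⊆ S.V → ∀ ε > 0, ∀ᶠ j in (𝒰 : Filter ℕ),
      ∀ z ∈ A, ∀ w ∈ S.fib z, dist (F j (z, w)) (G (z, w)) ≤ ε := by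
    intro A hA hAV ε hε
    refine hA.induction_on (p := fun A => ∀ᶠ j in (𝒰 : Filter ℕ),
      ∀ z ∈ A, ∀ w ∈ S.fib z, dist (F j (z, w)) (G (z, w)) ≤ ε) ?_ ?_ ?_ ?_
    · exact Eventually.of_forall fun j z hz => absurd hz (Set.notMem_empty _)
    · intro s t hst h
      filter_upwards [h] with j hj z hz
      exact hj z (hst hz)
    · intro s t h1 h2
      filter_upwards [h1, h2] with j hj1 hj2 z hz
      rcases hz with hz | hz
      · exact hj1 z hz
      · exact hj2 z hz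
    · intro z₀ hz₀
      obtain ⟨W, s, hW, hzW⟩ := sm_loc (hAV hz₀)
      have h1 : ∀ i, ∃ t ∈ 𝓝 z₀, ∀ᶠ j in (𝒰 : Filter ℕ), ∀ z ∈ t,
          dist (F j (z, s i z)) (G (z, s i z)) ≤ ε := by
        intro i
        have h2 := Metric.tendstoLocallyUniformlyOn_iff.1 (hsec W (s i) (hW.sec i)).2 ε hε z₀ hzW
        obtain ⟨t, ht, h3⟩ := h2
        rw [hW.isOpen.nhdsWithin_eq hzW] at ht
        refine ⟨t, ht, ?_⟩
        filter_upwards [h3] with j hj z hz
        rw [dist_comm]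
        exact (hj z hz).le
      choose t ht h3 using h1
      refine ⟨W ∩ ⋂ i, t i, mem_nhdsWithin_of_mem_nhds
        (inter_mem (hW.isOpen.mem_nhds hzW) (iInter_mem.2 ht)), ?_⟩
      filter_upwards [eventually_all.2 h3] with j hj z hz w hw
      rw [hW.fib z hz.1, Finset.mem_image] at hw
      obtain ⟨i, -, rfl⟩ := hw
      exact hj i z (Set.mem_iInter.1 hz.2 i)
  -- a subsequence
  have hfreq : ∀ m : ℕ, ∃ᶠ j in atTop, ∀ z, z ∈ S.V → p z ≤ m → ∀ w ∈ S.fib z,
      dist (F j (z, w)) (G (z, w)) ≤ 1 / ((m : ℝ) + 1) := by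
    intro m
    have h1 := hcpt {z | z ∈ S.V ∧ p z ≤ m} (hp.compact m) (fun z hz => hz.1)
      (1 / ((m : ℝ) + 1)) (by positivity)
    have h2 : ∃ᶠ j in (𝒰 : Filter ℕ), ∀ z ∈ {z | z ∈ S.V ∧ p z ≤ m}, ∀ w ∈ S.fib z,
      dist (F j (z, w)) (G (z, w)) ≤ 1 / ((m : ℝ) + 1) := h1.frequently
    refine (h2.filter_mono Nat.hyperfilter_le_atTop).mono fun j hj z hz hpz => hj z ⟨hz, hpz⟩
  obtain ⟨φ, hφ, hφ'⟩ := extraction_forall_of_frequently hfreq
  have hconv : ∀ q ∈ S.M, Tendsto (fun j => F (φ j) q) atTop (𝓝 (G q)) := by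
    intro q hq
    rw [tendsto_iff_dist_tendsto_zero]
    obtain ⟨m₀, hm₀⟩ := exists_nat_ge (p q.1)
    refine squeeze_zero' (Eventually.of_forall fun j => dist_nonneg) ?_
      tendsto_one_div_add_atTop_nhds_zero_nat
    filter_upwards [eventually_ge_atTop m₀] with j hj
    exact hφ' j q.1 hq.1 (hm₀.trans (by exact_mod_cast hj)) q.2 hq.2
  refine ⟨G, hGh, fun m => ?_, φ, hφ, hconv⟩
  -- Fatou
  have hmeas : ∀ j, AEMeasurable (fun q => ENNReal.ofReal (‖F j q‖ ^ 2 * Real.exp (-Ψ m q))) S.μ := by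
    intro j
    refine AEMeasurable.ennreal_ofReal ?_
    have h2 := (aestronglyMeasurable_of_CD ((hF j).CD 0)).norm.aemeasurable
    have h3 : AEMeasurable (Ψ m) S.μ := by
      have := (aestronglyMeasurable_of_CD (hΨ m)).aemeasurable
      exact (Complex.measurable_re.comp_aemeasurable this)
    exact (h2.pow_const 2).mul (Real.measurable_exp.comp_aemeasurable h3.neg)
  calc ∫⁻ q, ENNReal.ofReal (‖G q‖ ^ 2 * Real.exp (-Ψ m q)) ∂S.μ
      = ∫⁻ q, liminf (fun j => ENNReal.ofReal (‖F (φ j) q‖ ^ 2 * Real.exp (-Ψ m q))) atTop ∂S.μ := by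
        refine lintegral_congr_ae ?_
        filter_upwards [ae_mem_M (S := S)] with q hq
        refine (Tendsto.liminf_eq ?_).symm
        refine (ENNReal.continuous_ofReal.tendsto _).comp ?_
        exact (((hconv q hq).norm).pow 2).mul_const _
    _ ≤ liminf (fun j => ∫⁻ q, ENNReal.ofReal (‖F (φ j) q‖ ^ 2 * Real.exp (-Ψ m q)) ∂S.μ) atTop :=
        lintegral_liminf_le' fun j => hmeas (φ j)
    _ ≤ liminf (fun j => b (φ j)) atTop := by
        refine liminf_le_liminf ?_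
        filter_upwards [eventually_ge_atTop m] with j hj
        refine le_trans (lintegral_mono_ae ?_) (hIb (φ j))
        filter_upwards [ae_mem_M (S := S)] with q hq
        refine ENNReal.ofReal_le_ofReal ?_
        have h5 : Ψ (φ j) q ≤ Ψ m q := hantiM q hq (hj.trans (hφ.id_le j))
        gcongr
    _ = b' := (hb'.comp hφ.tendsto_atTop).liminf_eq

end Vale.Agent.P298.H283
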