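import Vale.Agent.P298.H265.Jet

/-!
# P298, S1-ABS (b) (helper283): the Schwarz lemma of Ahlfors for the pair `x, y`

`N, x, y` on a disc minus a finite set with lower support functions:
`∂∂̄ N ≥ -x`, `∂∂̄ log x ≥ x/N - y/x`, `∂∂̄ log y ≥ y/x`, `N ≤ Λ`. Then
`x ≤ 32 Λ R² / (R² - |z-c|²)²`.
-/

set_option linter.unusedVariables false
set_option linter.unusedSectionVars false

open Complex Metric Set Filter Topology
open Vale.Agent.P298.H265 (HasLap HasLap.add HasLap.const_mul HasLap.nonpos_of_isLocalMax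
  hasLap_re_analytic hasLap_log_norm hasLap_normSq hasLap_log_sub_normSq)

noncomputable section

namespace Vale.Agent.P298.H283

/-- lower supports of `N, x, y` at `z₀` -/
structure Supp (N x y : ℂ → ℝ) (z₀ : ℂ) : Prop where
  sN : ∃ (u : ℂ → ℝ) (L : ℝ), HasLap u z₀ L ∧ -x z₀ ≤ L ∧ u z₀ = N z₀ ∧ ∀ᶠ z in 𝓝 z₀, u z ≤ N z
  sx : 0 < x z₀ → 0 < N z₀ ∧ ∃ (u : ℂ → ℝ) (L : ℝ), HasLap u z₀ L ∧
    x z₀ / N z₀ - y z₀ / x z₀ ≤ L ∧ Real.exp (u z₀) = x z₀ ∧ ∀ᶠ z in 𝓝 z₀, Real.exp (u z) ≤ x z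
  sy : 0 < y z₀ → 0 < x z₀ ∧ ∃ (u : ℂ → ℝ) (L : ℝ), HasLap u z₀ L ∧
    y z₀ / x z₀ ≤ L ∧ Real.exp (u z₀) = y z₀ ∧ ∀ᶠ z in 𝓝 z₀, Real.exp (u z) ≤ y z

/-- the polynomial with zeros at the points of a finite set -/
def pol (S : Finset ℂ) (z : ℂ) : ℂ := ∏ τ ∈ S, (z - τ)

theorem pol_eq_zero {S : Finset ℂ} {z : ℂ} : pol S z = 0 ↔ z ∈ S := by
  rw [pol, Finset.prod_eq_zero_iff]
  constructor
  · rintro ⟨τ, hτ, h⟩
    rwa [sub_eq_zero.1 h]
  · exact fun h => ⟨z, h, sub_self z⟩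

theorem analyticAt_pol (S : Finset ℂ) (z : ℂ) : AnalyticAt ℂ (pol S) z := by
  unfold pol
  exact Finset.analyticAt_fun_prod _ fun τ _ => analyticAt_id.sub analyticAt_const

theorem continuous_pol (S : Finset ℂ) : Continuous (pol S) := by
  unfold pol
  fun_prop

theorem norm_pol_le {S : Finset ℂ} {c : ℂ} {B : ℝ} {r : ℝ} (hr : 0 ≤ r)
    (hB : ∀ τ ∈ S, ‖c - τ‖ ≤ B) {z : ℂ} (hz : ‖z - c‖ ≤ r) : ‖pol S z‖ ≤ (r + B) ^ S.card := by
  rw [pol, norm_prod, ← Finset.prod_const]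
  refine Finset.prod_le_prod (fun _ _ => norm_nonneg _) fun τ hτ => ?_
  have h1 : z - τ = (z - c) + (c - τ) := by ring
  rw [h1]
  exact (norm_add_le _ _).trans (add_le_add hz (hB τ hτ))

theorem exists_pol_bound (S : Finset ℂ) (c : ℂ) {r : ℝ} (hr : 0 ≤ r) :
    ∃ Q : ℝ, 1 ≤ Q ∧ ∀ z, ‖z - c‖ ≤ r → ‖pol S z‖ ≤ Q := by
  obtain ⟨B, hB⟩ := (S.finite_toSet.image fun τ => ‖c - τ‖).bddAbove
  refine ⟨max 1 ((r + B) ^ S.card), le_max_left _ _, fun z hz =>
    (norm_pol_le hr (fun τ hτ => hB ⟨τ, hτ, rfl⟩) hz).trans (le_max_right _ _)⟩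

/-- the elementary inequality -/
theorem elem_ineq {A B : ℝ} (hA : 0 < A) (hB : 0 ≤ B) :
    (1 / 16) * (A + B) ^ 2 * A ≤ A * (A ^ 2 - B ^ 2) + B ^ 3 / 2 := by
  have h1 : 0 ≤ 15 / 16 * A ^ 3 - 1 / 8 * A ^ 2 * B - 17 / 16 * A * B ^ 2 + 1 / 2 * B ^ 3 := by
    nlinarith [mul_nonneg hA.le (sq_nonneg (B - 3 / 2 * A)), mul_nonneg hB (sq_nonneg (B - 3 / 2 * A)),
      mul_nonneg hB (sq_nonneg (B - 7 / 5 * A)), pow_pos hA 3, mul_nonneg hB (sq_nonneg A),
      mul_nonneg hA.le (sq_nonneg (B - 7 / 5 * A))]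
  nlinarith [h1]

theorem elem_ineq' {A B k : ℝ} (hA : 0 < A) (hB : 0 ≤ B)
    (h : A / (A + B) * (A - B ^ 2 / A) + B / (A + B) / 2 * (B ^ 2 / A) ≤ k) :
    A + B ≤ 16 * k := by
  have hAB : 0 < A + B := by linarith
  have h1 : A / (A + B) * (A - B ^ 2 / A) + B / (A + B) / 2 * (B ^ 2 / A) =
      (A * (A ^ 2 - B ^ 2) + B ^ 3 / 2) / (A * (A + B)) := by
    field_simp
  rw [h1, div_le_iff₀ (by positivity)] at h
  have h2 := (elem_ineq hA hB).trans h
  have h3 : (1 / 16 * (A + B)) * (A * (A + B)) ≤ k * (A * (A + B)) := by nlinarith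
  have h4 := le_of_mul_le_mul_right h3 (by positivity)
  linarith

theorem log_add_ge {α β l m : ℝ} (hα : 0 < α) (hβ : 0 < β) (hl : 0 < l) (hm : 0 < m)
    (h : l + m = 1) :
    l * Real.log α + m * Real.log β - l * Real.log l - m * Real.log m ≤ Real.log (α + β) := by
  have h1 := strictConcaveOn_log_Ioi.concaveOn.2 (show α / l ∈ Ioi (0 : ℝ) from div_pos hα hl)
    (show β / m ∈ Ioi (0 : ℝ) from div_pos hβ hm) hl.le hm.le h
  simp only [smul_eq_mul] at h1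
  rw [mul_div_cancel₀ _ hl.ne', mul_div_cancel₀ _ hm.ne', Real.log_div hα.ne' hl.ne',
    Real.log_div hβ.ne' hm.ne'] at h1
  linarith

variable {N x y : ℂ → ℝ} {c : ℂ} {R Lam K : ℝ} {T : Finset ℂ}

/-- the weight -/
def wt (c : ℂ) (R : ℝ) (T : Finset ℂ) (ε : ℝ) (z : ℂ) : ℝ :=
  (R ^ 2 - ‖z - c‖ ^ 2) ^ 2 * ‖pol T z‖ ^ ε

theorem continuous_wt (c : ℂ) (R : ℝ) (T : Finset ℂ) {ε : ℝ} (hε : 0 < ε) :
    Continuous (wt c R T ε) := by
  unfold wt
  refine Continuous.mul (by fun_prop) ?_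
  exact (continuous_pol T).norm.rpow_const fun _ => Or.inr hε.le

theorem wt_nonneg (c : ℂ) (R : ℝ) (T : Finset ℂ) (ε : ℝ) (z : ℂ) : 0 ≤ wt c R T ε z :=
  mul_nonneg (sq_nonneg _) (Real.rpow_nonneg (norm_nonneg _) _)

/-- `x/Λ + (y/Λ)^(1/2)` -/
def Mf (x y : ℂ → ℝ) (Lam : ℝ) (z : ℂ) : ℝ := x z / Lam + Real.sqrt (y z / Lam)

theorem log_wt {z : ℂ} (hz : ‖z - c‖ ^ 2 < R ^ 2) (hzT : z ∉ T) (ε : ℝ) :
    0 < wt c R T ε z ∧ Real.log (wt c R T ε z) =
      2 * Real.log (R ^ 2 - ‖z - c‖ ^ 2) + ε * Real.log ‖pol T z‖ := by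
  have h1 : 0 < R ^ 2 - ‖z - c‖ ^ 2 := by linarith
  have h2 : 0 < ‖pol T z‖ := norm_pos_iff.2 fun h => hzT (pol_eq_zero.1 h)
  refine ⟨mul_pos (pow_pos h1 2) (Real.rpow_pos_of_pos h2 _), ?_⟩
  rw [wt, Real.log_mul (pow_pos h1 2).ne' (Real.rpow_pos_of_pos h2 _).ne', Real.log_pow,
    Real.log_rpow h2]
  norm_num

/-- at an interior maximum of `M · wt` -/
theorem at_max (hR : 0 < R) (hLam : 0 < Lam) (hN : ∀ z ∈ ball c R, N z ≤ Lam)
    (hx0 : ∀ z ∈ ball c R \ (T : Set ℂ), 0 ≤ x z) (hy0 : ∀ z ∈ ball c R \ (T : Set ℂ), 0 ≤ y z)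
    (hs : ∀ z ∈ ball c R \ (T : Set ℂ), Supp N x y z) {ε : ℝ} {z : ℂ}
    (hz : z ∈ ball c R \ (T : Set ℂ)) (hpos : 0 < Mf x y Lam z)
    (hmax : ∀ᶠ w in 𝓝 z, Mf x y Lam w * wt c R T ε w ≤ Mf x y Lam z * wt c R T ε z) :
    Mf x y Lam z * (R ^ 2 - ‖z - c‖ ^ 2) ^ 2 ≤ 32 * R ^ 2 := by
  have hzb : ‖z - c‖ < R := by
    have := hz.1
    rwa [mem_ball, dist_eq_norm] at this
  have hsq : ∀ {w : ℂ}, ‖w - c‖ < R → ‖w - c‖ ^ 2 < R ^ 2 := fun h =>
    pow_lt_pow_left₀ h (norm_nonneg _) two_ne_zero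
  have hV : 0 < R ^ 2 - ‖z - c‖ ^ 2 := by linarith [hsq hzb]
  have hzT : z ∉ T := fun h => hz.2 (Finset.mem_coe.2 h)
  have hnear : ∀ᶠ w in 𝓝 z, w ∈ ball c R ∧ w ∉ T := by
    refine (isOpen_ball.eventually_mem hz.1).and ?_
    filter_upwards [T.finite_toSet.isClosed.isOpen_compl.eventually_mem hz.2] with w hw
    exact fun h => hw (Finset.mem_coe.2 h)
  have hpol0 : pol T z ≠ 0 := fun h => hzT (pol_eq_zero.1 h)
  have hlapW : HasLap (fun w => 2 * Real.log (R ^ 2 - ‖w - c‖ ^ 2) + ε * Real.log ‖pol T w‖) z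
      (2 * (-(R ^ 2 / (R ^ 2 - ‖z - c‖ ^ 2) ^ 2)) + ε * 0) :=
    ((hasLap_log_sub_normSq hzb).const_mul 2).add
      ((hasLap_log_norm (analyticAt_pol T z) hpol0).const_mul ε)
  have hS := hs z hz
  have hx : 0 < x z := by
    rcases (hx0 z hz).lt_or_eq with h | h
    · exact h
    · exfalso
      have hy : y z = 0 := by
        by_contra h2
        have := (hS.sy (lt_of_le_of_ne (hy0 z hz) (Ne.symm h2))).1
        linarith
      rw [Mf, ← h, hy] at hpos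
      simp at hpos
  obtain ⟨hNpos, u1, L1, hu1, hL1, hu1z, hu1n⟩ := hS.sx hx
  set A : ℝ := x z / Lam with hA
  have hApos : 0 < A := div_pos hx hLam
  have hAN : A ≤ x z / N z := by
    rw [hA]
    exact div_le_div_of_nonneg_left hx.le hNpos (hN z hz.1)
  have hwtz := log_wt (T := T) (hsq hzb) hzT ε
  rcases (hy0 z hz).lt_or_eq with hy | hy
  · -- both positive
    obtain ⟨-, u2, L2, hu2, hL2, hu2z, hu2n⟩ := hS.sy hy
    set B : ℝ := Real.sqrt (y z / Lam) with hB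
    have hBpos : 0 < B := Real.sqrt_pos.2 (div_pos hy hLam)
    have hB2 : B ^ 2 = y z / Lam := Real.sq_sqrt (div_pos hy hLam).le
    have hyx : y z / x z = B ^ 2 / A := by
      rw [hB2, hA]
      field_simp
    have hAB : 0 < A + B := by linarith
    set l : ℝ := A / (A + B) with hl
    set m : ℝ := B / (A + B) with hm
    have hlpos : 0 < l := div_pos hApos hAB
    have hmpos : 0 < m := div_pos hBpos hAB
    have hlm : l + m = 1 := by rw [hl, hm]; field_simp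
    have hlap : HasLap (fun w => (l * u1 w + m / 2 * u2 w) +
        (2 * Real.log (R ^ 2 - ‖w - c‖ ^ 2) + ε * Real.log ‖pol T w‖)) z
        ((l * L1 + m / 2 * L2) + (2 * (-(R ^ 2 / (R ^ 2 - ‖z - c‖ ^ 2) ^ 2)) + ε * 0)) :=
      ((hu1.const_mul l).add (hu2.const_mul (m / 2))).add hlapW
    -- lower bound for `log M`
    have hlow : ∀ w, Real.exp (u1 w) ≤ x w → Real.exp (u2 w) ≤ y w →
        0 < Mf x y Lam w ∧ l * u1 w + m / 2 * u2 w - l * Real.log Lam - m / 2 * Real.log Lam -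
          l * Real.log l - m * Real.log m ≤ Real.log (Mf x y Lam w) := by
      intro w h1 h2
      have hα : 0 < Real.exp (u1 w) / Lam := div_pos (Real.exp_pos _) hLam
      have hβ : 0 < Real.exp (u2 w) / Lam := div_pos (Real.exp_pos _) hLam
      have hβ' : 0 < Real.sqrt (Real.exp (u2 w) / Lam) := Real.sqrt_pos.2 hβ
      have h3 : Real.exp (u1 w) / Lam + Real.sqrt (Real.exp (u2 w) / Lam) ≤ Mf x y Lam w :=
        add_le_add (div_le_div_of_nonneg_right h1 hLam.le)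
          (Real.sqrt_le_sqrt (div_le_div_of_nonneg_right h2 hLam.le))
      have h4 := log_add_ge hα hβ' hlpos hmpos hlm
      refine ⟨lt_of_lt_of_le (by positivity) h3, ?_⟩
      refine le_trans ?_ (Real.log_le_log (by positivity) h3)
      refine le_trans (le_of_eq ?_) h4
      rw [Real.log_sqrt hβ.le, Real.log_div (Real.exp_pos _).ne' hLam.ne',
        Real.log_div (Real.exp_pos _).ne' hLam.ne', Real.log_exp, Real.log_exp]
      ring
    have heq : Real.log (Mf x y Lam z) = l * u1 z + m / 2 * u2 z - l * Real.log Lam -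
        m / 2 * Real.log Lam - l * Real.log l - m * Real.log m := by
      have e1 : Mf x y Lam z = A + B := rfl
      have e2 : u1 z = Real.log A + Real.log Lam := by
        rw [← Real.log_mul hApos.ne' hLam.ne', hA, div_mul_cancel₀ _ hLam.ne', ← hu1z,
          Real.log_exp]
      have e3 : u2 z = 2 * Real.log B + Real.log Lam := by
        have : Real.log (B ^ 2) = 2 * Real.log B := by rw [Real.log_pow]; norm_num
        rw [← this, ← Real.log_mul (pow_pos hBpos 2).ne' hLam.ne', hB2,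
          div_mul_cancel₀ _ hLam.ne', ← hu2z, Real.log_exp]
      have e4 : Real.log l = Real.log A - Real.log (A + B) := by
        rw [hl, Real.log_div hApos.ne' hAB.ne']
      have e5 : Real.log m = Real.log B - Real.log (A + B) := by
        rw [hm, Real.log_div hBpos.ne' hAB.ne']
      rw [e1, e2, e3, e4, e5]
      have e6 : m = 1 - l := by linarith
      rw [e6]
      ring
    have hloc : IsLocalMax (fun w => (l * u1 w + m / 2 * u2 w) +
        (2 * Real.log (R ^ 2 - ‖w - c‖ ^ 2) + ε * Real.log ‖pol T w‖)) z := by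
      filter_upwards [hmax, hu1n, hu2n, hnear] with w h1 h2 h3 h4
      have hwb : ‖w - c‖ < R := by
        have := h4.1
        rwa [mem_ball, dist_eq_norm] at this
      have hwtw := log_wt (T := T) (hsq hwb) h4.2 ε
      obtain ⟨h5, h6⟩ := hlow w h2 h3
      have h7 := Real.log_le_log (mul_pos h5 hwtw.1) h1
      rw [Real.log_mul h5.ne' hwtw.1.ne', Real.log_mul hpos.ne' hwtz.1.ne', heq, hwtw.2,
        hwtz.2] at h7
      linarith
    have h0 := hlap.nonpos_of_isLocalMax hloc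
    rw [hyx] at hL1 hL2
    have h8 : l * (A - B ^ 2 / A) + m / 2 * (B ^ 2 / A) ≤
        2 * (R ^ 2 / (R ^ 2 - ‖z - c‖ ^ 2) ^ 2) := by
      have h9 : l * (A - B ^ 2 / A) ≤ l * L1 :=
        mul_le_mul_of_nonneg_left (by linarith) hlpos.le
      have h10 : m / 2 * (B ^ 2 / A) ≤ m / 2 * L2 :=
        mul_le_mul_of_nonneg_left hL2 (by linarith)
      linarith
    have h11 := elem_ineq' hApos hBpos.le h8
    have h12 : Mf x y Lam z = A + B := rfl
    rw [h12]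
    calc (A + B) * (R ^ 2 - ‖z - c‖ ^ 2) ^ 2
        ≤ (16 * (2 * (R ^ 2 / (R ^ 2 - ‖z - c‖ ^ 2) ^ 2))) * (R ^ 2 - ‖z - c‖ ^ 2) ^ 2 :=
          mul_le_mul_of_nonneg_right h11 (sq_nonneg _)
      _ = 32 * R ^ 2 := by field_simp; norm_num
  · -- `y z = 0`
    have hM : Mf x y Lam z = A := by rw [Mf, ← hy]; simp [hA]
    have hlap : HasLap (fun w => u1 w +
        (2 * Real.log (R ^ 2 - ‖w - c‖ ^ 2) + ε * Real.log ‖pol T w‖)) z
        (L1 + (2 * (-(R ^ 2 / (R ^ 2 - ‖z - c‖ ^ 2) ^ 2)) + ε * 0)) := hu1.add hlapW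
    have hloc : IsLocalMax (fun w => u1 w +
        (2 * Real.log (R ^ 2 - ‖w - c‖ ^ 2) + ε * Real.log ‖pol T w‖)) z := by
      filter_upwards [hmax, hu1n, hnear] with w h1 h2 h4
      have hwb : ‖w - c‖ < R := by
        have := h4.1
        rwa [mem_ball, dist_eq_norm] at this
      have hwtw := log_wt (T := T) (hsq hwb) h4.2 ε
      have hα : 0 < Real.exp (u1 w) / Lam := div_pos (Real.exp_pos _) hLam
      have h3 : Real.exp (u1 w) / Lam ≤ Mf x y Lam w :=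
        (div_le_div_of_nonneg_right h2 hLam.le).trans (le_add_of_nonneg_right (Real.sqrt_nonneg _))
      have h5 : 0 < Mf x y Lam w := hα.trans_le h3
      have h6 := Real.log_le_log hα h3
      have h7 := Real.log_le_log (mul_pos h5 hwtw.1) h1
      rw [Real.log_mul h5.ne' hwtw.1.ne', Real.log_mul hpos.ne' hwtz.1.ne', hwtw.2,
        hwtz.2, hM, hA, ← hu1z, Real.log_div (Real.exp_pos _).ne' hLam.ne', Real.log_exp] at h7
      rw [Real.log_div (Real.exp_pos _).ne' hLam.ne', Real.log_exp] at h6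
      linarith
    have h0 := hlap.nonpos_of_isLocalMax hloc
    rw [← hy, zero_div, sub_zero] at hL1
    have h8 : A ≤ 2 * (R ^ 2 / (R ^ 2 - ‖z - c‖ ^ 2) ^ 2) := by linarith
    rw [hM]
    calc A * (R ^ 2 - ‖z - c‖ ^ 2) ^ 2
        ≤ (2 * (R ^ 2 / (R ^ 2 - ‖z - c‖ ^ 2) ^ 2)) * (R ^ 2 - ‖z - c‖ ^ 2) ^ 2 :=
          mul_le_mul_of_nonneg_right h8 (sq_nonneg _)
      _ = 2 * R ^ 2 := by field_simp
      _ ≤ 32 * R ^ 2 := by nlinarith [sq_nonneg R]

/-- **The Schwarz lemma.** -/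
theorem schwarz (hR : 0 < R) (hN0 : ∀ z ∈ ball c R, 0 ≤ N z) (hN : ∀ z ∈ ball c R, N z ≤ Lam)
    (hx0 : ∀ z ∈ ball c R \ (T : Set ℂ), 0 ≤ x z) (hy0 : ∀ z ∈ ball c R \ (T : Set ℂ), 0 ≤ y z)
    (hxK : ∀ z ∈ ball c R \ (T : Set ℂ), x z ≤ K) (hyK : ∀ z ∈ ball c R \ (T : Set ℂ), y z ≤ K)
    (hxc : ContinuousOn x (ball c R \ (T : Set ℂ)))
    (hyc : ContinuousOn y (ball c R \ (T : Set ℂ)))
    (hs : ∀ z ∈ ball c R \ (T : Set ℂ), Supp N x y z) :
    ∀ z ∈ ball c R \ (T : Set ℂ), x z * (R ^ 2 - ‖z - c‖ ^ 2) ^ 2 ≤ 32 * Lam * R ^ 2 := by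
  classical
  intro z₀ hz₀
  have hLam0 : 0 ≤ Lam := (hN0 z₀ hz₀.1).trans (hN z₀ hz₀.1)
  rcases hLam0.eq_or_lt with hL | hLam
  · -- `Λ = 0`
    have h1 : x z₀ = 0 := by
      by_contra h2
      have h3 := ((hs z₀ hz₀).sx (lt_of_le_of_ne (hx0 z₀ hz₀) (Ne.symm h2))).1
      have h4 := hN z₀ hz₀.1
      linarith
    rw [h1, ← hL]
    simp
  have hMnn : ∀ z, z ∈ ball c R \ (T : Set ℂ) → 0 ≤ Mf x y Lam z := fun z hz =>
    add_nonneg (div_nonneg (hx0 z hz) hLam.le) (Real.sqrt_nonneg _)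
  set KM : ℝ := K / Lam + Real.sqrt (K / Lam) with hKM
  have hMK : ∀ z, z ∈ ball c R \ (T : Set ℂ) → Mf x y Lam z ≤ KM := fun z hz =>
    add_le_add (div_le_div_of_nonneg_right (hxK z hz) hLam.le)
      (Real.sqrt_le_sqrt (div_le_div_of_nonneg_right (hyK z hz) hLam.le))
  have hKM0 : 0 ≤ KM := (hMnn z₀ hz₀).trans (hMK z₀ hz₀)
  have hMc : ContinuousOn (Mf x y Lam) (ball c R \ (T : Set ℂ)) :=
    (hxc.div_const _).add (hyc.div_const _).sqrt
  have hopen : IsOpen (ball c R \ (T : Set ℂ)) := isOpen_ball.sdiff T.finite_toSet.isClosed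
  obtain ⟨Q, hQ1, hQ⟩ := exists_pol_bound T c hR.le
  have hzb : ∀ {z : ℂ}, z ∈ ball c R → ‖z - c‖ < R := fun h => by
    rwa [mem_ball, dist_eq_norm] at h
  -- the key estimate with `ε`
  have key : ∀ ε : ℝ, 0 < ε → Mf x y Lam z₀ * wt c R T ε z₀ ≤ 32 * R ^ 2 * Q ^ ε := by
    intro ε hε
    have hQε : 0 < Q ^ ε := Real.rpow_pos_of_pos (by linarith) _
    set W := wt c R T ε with hW
    have hWc : Continuous W := continuous_wt c R T hε
    set G : ℂ → ℝ := fun z => if z ∈ ball c R \ (T : Set ℂ) then Mf x y Lam z * W z else 0 with hG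
    have hG0 : ∀ z, 0 ≤ G z := by
      intro z
      simp only [hG]
      split_ifs with h
      · exact mul_nonneg (hMnn z h) (wt_nonneg _ _ _ _ _)
      · exact le_rfl
    have hGle : ∀ z, G z ≤ KM * W z := by
      intro z
      simp only [hG]
      split_ifs with h
      · exact mul_le_mul_of_nonneg_right (hMK z h) (wt_nonneg _ _ _ _ _)
      · exact mul_nonneg hKM0 (wt_nonneg _ _ _ _ _)
    have hGc : ContinuousOn G (closedBall c R) := by
      intro z hz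
      by_cases hzm : z ∈ ball c R \ (T : Set ℂ)
      · have h1 : ContinuousAt (fun z => Mf x y Lam z * W z) z :=
          (hMc.continuousAt (hopen.mem_nhds hzm)).mul hWc.continuousAt
        refine (h1.congr ?_).continuousWithinAt
        filter_upwards [hopen.mem_nhds hzm] with w hw
        simp only [hG, if_pos hw]
      · -- the weight vanishes
        have hW0 : W z = 0 := by
          by_cases hzT : z ∈ T
          · have h1 : pol T z = 0 := pol_eq_zero.2 hzT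
            rw [hW, wt, h1, norm_zero, Real.zero_rpow hε.ne', mul_zero]
          · have h1 : ‖z - c‖ = R := by
              have h2 : z ∉ ball c R := fun h => hzm ⟨h, fun h' => hzT (Finset.mem_coe.1 h')⟩
              rw [mem_ball, dist_eq_norm, not_lt] at h2
              rw [mem_closedBall, dist_eq_norm] at hz
              exact le_antisymm hz h2
            rw [hW, wt, h1, sub_self]
            simp
        have hGz : G z = 0 := by simp only [hG, if_neg hzm]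
        rw [ContinuousWithinAt, hGz]
        refine squeeze_zero (fun w => hG0 w) (fun w => hGle w) ?_
        have h2 : Tendsto (fun w => KM * W w) (𝓝 z) (𝓝 (KM * W z)) :=
          (continuous_const.mul hWc).tendsto z
        rw [hW0, mul_zero] at h2
        exact h2.mono_left nhdsWithin_le_nhds
    obtain ⟨zm, hzm, hmax⟩ := (isCompact_closedBall c R).exists_isMaxOn
      ⟨c, mem_closedBall_self hR.le⟩ hGc
    have hz₀G : G z₀ = Mf x y Lam z₀ * W z₀ := by simp only [hG, if_pos hz₀]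
    have h1 : G z₀ ≤ G zm := hmax (ball_subset_closedBall hz₀.1)
    rw [← hz₀G]
    refine h1.trans ?_
    by_cases hpos : 0 < G zm
    · have hzm' : zm ∈ ball c R \ (T : Set ℂ) := by
        by_contra h
        simp only [hG, if_neg h, lt_irrefl] at hpos
      have hGm : G zm = Mf x y Lam zm * W zm := by simp only [hG, if_pos hzm']
      have hMpos : 0 < Mf x y Lam zm := by
        rw [hGm] at hpos
        exact pos_of_mul_pos_left hpos (wt_nonneg _ _ _ _ _)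
      have h2 := at_max (ε := ε) hR hLam hN hx0 hy0 hs hzm' hMpos (by
        filter_upwards [hopen.mem_nhds hzm'] with w hw
        have h3 := hmax (ball_subset_closedBall hw.1)
        have h4 : G w = Mf x y Lam w * W w := by simp only [hG, if_pos hw]
        change G w ≤ G zm at h3
        rwa [h4, hGm] at h3)
      rw [hGm, hW, wt, ← mul_assoc]
      refine mul_le_mul h2 ?_ (Real.rpow_nonneg (norm_nonneg _) _) (by positivity)
      exact Real.rpow_le_rpow (norm_nonneg _) (hQ zm (hzb hzm'.1).le) hε.le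
    · exact (not_lt.1 hpos).trans (by positivity)
  -- `ε → 0`
  have hz₀T : z₀ ∉ T := fun h => hz₀.2 (Finset.mem_coe.2 h)
  have hp : 0 < ‖pol T z₀‖ := norm_pos_iff.2 fun h => hz₀T (pol_eq_zero.1 h)
  have hlim1 : Tendsto (fun ε : ℝ => Mf x y Lam z₀ * wt c R T ε z₀) (𝓝[>] 0)
      (𝓝 (Mf x y Lam z₀ * ((R ^ 2 - ‖z₀ - c‖ ^ 2) ^ 2 * ‖pol T z₀‖ ^ (0 : ℝ)))) := by
    refine Tendsto.const_mul _ (Tendsto.const_mul _ ?_)
    exact ((Real.continuousAt_const_rpow hp.ne').tendsto).mono_left nhdsWithin_le_nhds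
  have hlim2 : Tendsto (fun ε : ℝ => 32 * R ^ 2 * Q ^ ε) (𝓝[>] 0)
      (𝓝 (32 * R ^ 2 * Q ^ (0 : ℝ))) := by
    refine Tendsto.const_mul _ ?_
    exact ((Real.continuousAt_const_rpow (by linarith : Q ≠ 0)).tendsto).mono_left
      nhdsWithin_le_nhds
  have h1 := le_of_tendsto_of_tendsto hlim1 hlim2
    (eventually_mem_nhdsWithin.mono fun ε hε => key ε hε)
  rw [Real.rpow_zero, Real.rpow_zero, mul_one, mul_one] at h1
  have h2 : x z₀ / Lam ≤ Mf x y Lam z₀ := le_add_of_nonneg_right (Real.sqrt_nonneg _)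
  have h3 : x z₀ / Lam * (R ^ 2 - ‖z₀ - c‖ ^ 2) ^ 2 ≤ 32 * R ^ 2 :=
    (mul_le_mul_of_nonneg_right h2 (sq_nonneg _)).trans h1
  have h4 : x z₀ * (R ^ 2 - ‖z₀ - c‖ ^ 2) ^ 2 =
      Lam * (x z₀ / Lam * (R ^ 2 - ‖z₀ - c‖ ^ 2) ^ 2) := by
    field_simp
  rw [h4]
  calc Lam * (x z₀ / Lam * (R ^ 2 - ‖z₀ - c‖ ^ 2) ^ 2) ≤ Lam * (32 * R ^ 2) :=
        mul_le_mul_of_nonneg_left h3 hLam.le
    _ = 32 * Lam * R ^ 2 := by ring

end Vale.Agent.P298.H283
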